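import Vale.Agent.P154.Exp

namespace Vale.Agent.P154

open Equiv Finset Filter

variable {q : ℕ}

/-- chi-square functional -/
noncomputable def yy (a : Fin q → ℝ) : ℝ := (∑ i, (a i - 1) ^ 2) / q

lemma continuous_yy : Continuous (yy (q := q)) := by unfold yy; fun_prop

lemma continuous_tv : Continuous (tv (q := q)) := by unfold tv; fun_prop

lemma yy_nonneg (a : Fin q → ℝ) : 0 ≤ yy a := by unfold yy; positivity

lemma yy_shr (lam : ℝ) (a : Fin q → ℝ) : yy (shr lam a) = lam ^ 2 * yy a := by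
  unfold yy shr
  rw [← mul_div_assoc, mul_sum]
  congr 1
  exact sum_congr rfl fun i _ => by ring

structure Cert (q : ℕ) (ψ A B : (Fin q → ℝ) → ℝ) (ε : ℝ) : Prop where
  cψ : Continuous ψ
  cA : Continuous A
  cB : Continuous B
  eps : 0 < ε
  vert : ∀ i, 0 ≤ ψ (fun j => if i = j then (q : ℝ) else 0)
  cen : 0 ≤ ψ (fun _ => 1)
  shrink : ∀ a, Simp a → ∀ lam, 0 ≤ lam → lam ≤ 1 → lam ^ 3 * ψ a ≤ ψ (shr lam a)
  A0 : ∀ a, Simp a → 0 ≤ A a
  B0 : ∀ a, Simp a → 0 ≤ B a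
  D : ∀ a b, Simp a → Simp b →
    avg yy a b + ψ a * A b + A a * ψ b + ε * yy a ^ 2 * yy b ≤ yy a + yy b
  P : ∀ a b, Simp a → Simp b → ψ a * B b + B a * ψ b ≤ avg ψ a b

lemma hom_neg (F : (Fin q → ℝ) → ℝ) (w : Fin q → ℝ) : hom (fun a => -F a) w = -hom F w := by
  simp [hom]

lemma avg_neg (F : (Fin q → ℝ) → ℝ) (a b : Fin q → ℝ) :
    avg (fun a => -F a) a b = -avg F a b := by
  simp [avg, hom_neg, neg_div]

lemma Ex_neg {O : Type} (W : O → Fin q → ℝ) (F : (Fin q → ℝ) → ℝ) :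
    Ex W (fun a => -F a) = -Ex W F := by
  simp [Ex, hom_neg, tsum_neg]

variable [NeZero q] {O O' : Type} {W : O → Fin q → ℝ} {V : O' → Fin q → ℝ}
  {ψ A B : (Fin q → ℝ) → ℝ} {ε : ℝ}

lemma Cert.prod_class (C : Cert q ψ A B ε) (hW : IsExp W) (hV : IsExp V) (h1 : 0 ≤ Ex W ψ)
    (h2 : 0 ≤ Ex V ψ) : 0 ≤ Ex (prodE W V) ψ := by
  have := hW.prod_ge hV C.cψ (univ : Finset (Fin 2)) (G := ![ψ, B]) (H := ![B, ψ])
    (fun i => by fin_cases i; exacts [C.cψ, C.cB]) (fun i => by fin_cases i; exacts [C.cB, C.cψ])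
    (fun a b ha hb => by simpa [Fin.sum_univ_two] using C.P a b ha hb)
  simp only [Fin.sum_univ_two, Matrix.cons_val_zero, Matrix.cons_val_one] at this
  have h3 := hW.ex_nonneg C.cB C.B0
  have h4 := hV.ex_nonneg C.cB C.B0
  nlinarith [mul_nonneg h1 h4, mul_nonneg h3 h2]

lemma IsExp.sq_le (hW : IsExp W) : Ex W yy ^ 2 ≤ Ex W (fun a => yy a ^ 2) := by
  have c := continuous_yy (q := q)
  have := hW.ex_le (F := fun a => 2 * Ex W yy * yy a + -Ex W yy ^ 2) (G := fun a => yy a ^ 2)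
    (by fun_prop) (by fun_prop) (fun a _ => by nlinarith [sq_nonneg (yy a - Ex W yy)])
  rw [hW.ex_affine c] at this
  linarith

lemma Cert.prod_chi (C : Cert q ψ A B ε) (hW : IsExp W) (hV : IsExp V) (h1 : 0 ≤ Ex W ψ)
    (h2 : 0 ≤ Ex V ψ) :
    Ex (prodE W V) yy + ε * Ex W yy ^ 2 * Ex V yy ≤ Ex W yy + Ex V yy := by
  have c := continuous_yy (q := q)
  have := hW.prod_ge hV (F := fun a => -yy a) c.neg (univ : Finset (Fin 5))
    (G := ![ψ, A, fun a => yy a ^ 2, fun a => -yy a, fun _ => 1])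
    (H := ![A, ψ, fun a => ε * yy a + 0, fun _ => 1, fun a => -yy a])
    (fun i => by fin_cases i; exacts [C.cψ, C.cA, c.pow 2, c.neg, continuous_const])
    (fun i => by
      fin_cases i
      exacts [C.cA, C.cψ, (c.const_mul ε).add continuous_const, continuous_const, c.neg])
    (fun a b ha hb => by
      have := C.D a b ha hb
      simp [Fin.sum_univ_five, avg_neg]
      linarith)
  simp only [Fin.sum_univ_five, Matrix.cons_val_zero, Matrix.cons_val_one, Matrix.cons_val,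
    Ex_neg, hW.ex_const, hV.ex_const, hV.ex_affine c] at this
  have h3 := hW.ex_nonneg C.cA C.A0
  have h4 := hV.ex_nonneg C.cA C.A0
  have h5 := hV.ex_nonneg c (fun a _ => yy_nonneg a)
  have h6 := mul_le_mul_of_nonneg_right hW.sq_le (mul_nonneg C.eps.le h5)
  nlinarith [mul_nonneg h1 h4, mul_nonneg h3 h2]

lemma Cert.pow_class (C : Cert q ψ A B ε) (hW : IsExp W) (h1 : 0 ≤ Ex W ψ) :
    ∀ k, 0 ≤ Ex (powE W k) ψ
  | 0 => by rw [Ex_pow_zero]; exact C.cen
  | k + 1 => by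
    rw [Ex_pow_succ]; exact C.prod_class hW (hW.pow k) h1 (C.pow_class hW h1 k)

lemma Cert.pow_chi (C : Cert q ψ A B ε) (hW : IsExp W) (h1 : 0 ≤ Ex W ψ) :
    ∀ k, Ex (powE W k) yy ≤ k * Ex W yy - (if 2 ≤ k then ε * Ex W yy ^ 3 else 0)
  | 0 => by simp [Ex_pow_zero, yy]
  | 1 => by simp [Ex_pow_one]
  | 2 => by
    have := C.prod_chi hW (hW.pow 1) h1 (C.pow_class hW h1 1)
    rw [Ex_pow_one, ← Ex_pow_succ] at this
    simp only [le_refl, if_true]
    push_cast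
    nlinarith
  | k + 3 => by
    have h2 := C.prod_chi hW (hW.pow (k + 2)) h1 (C.pow_class hW h1 (k + 2))
    rw [← Ex_pow_succ] at h2
    have h3 := C.pow_chi hW h1 (k + 2)
    have h4 := (hW.pow (k + 2)).ex_nonneg continuous_yy (fun a _ => yy_nonneg a)
    have h5 := mul_nonneg (mul_nonneg C.eps.le (sq_nonneg (Ex W yy))) h4
    rw [if_pos (by omega)] at h3 ⊢
    push_cast at h3 ⊢
    linarith

lemma adm_of_nonneg {lam : ℝ} (h0 : 0 ≤ lam) (h1 : lam ≤ 1) : Adm q lam := by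
  refine ⟨h1, ?_⟩
  have : (1 : ℝ) ≤ q := by exact_mod_cast Nat.pos_of_ne_zero (NeZero.ne q)
  have := mul_nonneg h0 (sub_nonneg.2 this)
  linarith

lemma hom_vertex (F : (Fin q → ℝ) → ℝ) (o : Fin q) :
    hom F (fun i => if o = i then (1 : ℝ) else 0)
      = 1 / q * F (fun j => if o = j then (q : ℝ) else 0) := by
  have hq := qpos (q := q)
  have hs : Simp (fun j => if o = j then (q : ℝ) else 0) :=
    ⟨fun j => by positivity, by simp⟩
  rw [← hs.hom F, ← hom_smul]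
  congr 1
  ext i
  by_cases h : o = i <;> simp [h, hq.ne']

lemma Cert.lk_class (C : Cert q ψ A B ε) {p : ℕ → ℝ} (hp : ∀ k, 0 ≤ p k) (hs : HasSum p 1)
    {lam : ℝ} (h0 : 0 ≤ lam) (h1 : lam ≤ 1) :
    ∀ n, 0 ≤ Ex (lk q p lam n) ψ ∧ 0 ≤ Ex (shE lam (lk q p lam n)) ψ := by
  have ha : Adm q lam := adm_of_nonneg h0 h1
  have key : ∀ n, 0 ≤ Ex (lk q p lam n) ψ → 0 ≤ Ex (shE lam (lk q p lam n)) ψ := by
    intro n hn
    have hE := isExp_lk hp hs ha n
    rw [hE.ex_sh ha]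
    have := hE.ex_le (F := fun a => lam ^ 3 * ψ a + 0) (G := fun a => ψ (shr lam a))
      ((C.cψ.const_mul _).add continuous_const) (C.cψ.comp (continuous_shr lam))
      (fun a h => by rw [add_zero]; exact C.shrink a h lam h0 h1)
    rw [hE.ex_affine C.cψ] at this
    have := mul_nonneg (pow_nonneg h0 3) hn
    linarith
  intro n
  induction n with
  | zero =>
    have : 0 ≤ Ex (lk q p lam 0) ψ := tsum_nonneg fun (o : Fin q) =>
      (mul_nonneg (by positivity) (C.vert o)).trans_eq (hom_vertex ψ o).symm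
    exact ⟨this, key 0 this⟩
  | succ n ih =>
    have hE := (isExp_lk hp hs ha n).sh ha
    have : 0 ≤ Ex (lk q p lam (n + 1)) ψ := by
      rw [lk_succ]
      exact (IsExp.hasSum_mix hp hs hE.pow C.cψ).nonneg
        fun k => mul_nonneg (hp k) (C.pow_class hE ih.2 k)
    exact ⟨this, key _ this⟩

lemma Cert.step (C : Cert q ψ A B ε) {p : ℕ → ℝ} (hp : ∀ k, 0 ≤ p k) (hs : HasSum p 1) {d : ℝ}
    (hd : HasSum (fun k : ℕ => p k * k) d) {k0 : ℕ} (hk : 2 ≤ k0)
    {lam : ℝ} (h0 : 0 ≤ lam) (h1 : lam ≤ 1) (n : ℕ) :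
    Ex (lk q p lam (n + 1)) yy ≤ d * lam ^ 2 * Ex (lk q p lam n) yy
      - p k0 * ε * lam ^ 6 * Ex (lk q p lam n) yy ^ 3 := by
  have ha : Adm q lam := adm_of_nonneg h0 h1
  have hE0 := isExp_lk hp hs ha n
  have hE := hE0.sh ha
  have hx : Ex (shE lam (lk q p lam n)) yy = lam ^ 2 * Ex (lk q p lam n) yy := by
    rw [hE0.ex_sh ha]
    simpa [yy_shr] using hE0.ex_affine continuous_yy (lam ^ 2) 0
  have hx0 := hE.ex_nonneg continuous_yy (fun a _ => yy_nonneg a)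
  set x := Ex (shE lam (lk q p lam n)) yy with hxdef
  have h2 := (hd.mul_right x).sub (hasSum_ite_eq k0 (p k0 * (ε * x ^ 3)))
  have h3 := hasSum_le (fun k => ?_) (IsExp.hasSum_mix hp hs hE.pow continuous_yy) h2
  · rw [lk_succ]
    refine h3.trans (le_of_eq ?_)
    rw [hx]; ring
  · have h4 := mul_le_mul_of_nonneg_left (C.pow_chi hE (C.lk_class hp hs h0 h1 n).2 k) (hp k)
    rw [← hxdef] at h4
    have h5 : 0 ≤ p k * (ε * x ^ 3) := mul_nonneg (hp k) (mul_nonneg C.eps.le (pow_nonneg hx0 3))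
    by_cases hk' : k = k0
    · subst hk'
      rw [if_pos hk] at h4
      rw [if_pos rfl]
      linarith
    · rw [if_neg hk']
      split_ifs at h4 <;> linarith

lemma tendsto_zero_of_step {x : ℕ → ℝ} {c : ℝ} (hc : 0 < c) (h0 : ∀ n, 0 ≤ x n)
    (h : ∀ n, x (n + 1) ≤ x n - c * x n ^ 3) : Tendsto x atTop (nhds 0) := by
  have ha : Antitone x := antitone_nat_of_succ_le fun n => by
    have := mul_nonneg hc.le (pow_nonneg (h0 n) 3); linarith [h n]
  have hb : BddBelow (Set.range x) := ⟨0, by rintro _ ⟨n, rfl⟩; exact h0 n⟩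
  have hl := tendsto_atTop_ciInf ha hb
  set L := ⨅ n, x n
  have hL : 0 ≤ L := ge_of_tendsto' hl h0
  have h1 : L ≤ L - c * L ^ 3 :=
    le_of_tendsto_of_tendsto' ((tendsto_add_atTop_iff_nat 1).2 hl)
      (hl.sub ((hl.pow 3).const_mul c)) h
  have h2 : L ^ 3 ≤ 0 := by nlinarith
  have h3 : L = 0 := pow_eq_zero_iff (n := 3) (by norm_num) |>.1 (le_antisymm h2 (pow_nonneg hL 3))
  rwa [h3] at hl

lemma tv_le (a : Fin q → ℝ) {δ : ℝ} (hδ : 0 < δ) : tv a ≤ 1 / δ * yy a + δ := by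
  have hq := qpos (q := q)
  have h : ∑ i, |a i - 1| ≤ ∑ i, (1 / δ * (a i - 1) ^ 2 + δ) := sum_le_sum fun i _ => by
    have h1 : |a i - 1| ^ 2 = (a i - 1) ^ 2 := sq_abs _
    rw [← h1, one_div, inv_mul_eq_div, ← sub_le_iff_le_add, le_div_iff₀ hδ]
    nlinarith [sq_nonneg (|a i - 1| - δ), abs_nonneg (a i - 1)]
  rw [sum_add_distrib, ← mul_sum] at h
  simp only [sum_const, card_univ, Fintype.card_fin, nsmul_eq_mul] at h
  have h2 : 0 ≤ ∑ i, |a i - 1| := sum_nonneg fun i _ => abs_nonneg _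
  unfold tv yy
  rw [div_le_iff₀ (by positivity)]
  have : (1 / δ * ((∑ i, (a i - 1) ^ 2) / q) + δ) * (2 * q)
      = 2 * (1 / δ * (∑ i, (a i - 1) ^ 2) + q * δ) := by field_simp
  rw [this]; linarith

lemma nonrecon_of_chi {p : ℕ → ℝ} (hp : ∀ k, 0 ≤ p k) (hs : HasSum p 1) {lam : ℝ}
    (ha : Adm q lam) (h : Tendsto (fun n => Ex (lk q p lam n) yy) atTop (nhds 0)) :
    NonRecon q p lam := by
  unfold NonRecon
  rw [Metric.tendsto_atTop] at h ⊢
  intro e he
  obtain ⟨N, hN⟩ := h (e ^ 2 / 4) (by positivity)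
  refine ⟨N, fun n hn => ?_⟩
  have hE := isExp_lk hp hs ha n
  have h1 := hN n hn
  have h2 := hE.ex_le (G := fun a => 1 / (e / 2) * yy a + e / 2) continuous_tv
    ((continuous_yy.const_mul _).add continuous_const)
    (fun a _ => tv_le a (half_pos he))
  have h3 : 0 ≤ Ex (lk q p lam n) tv := hE.ex_nonneg continuous_tv fun a _ => by
    unfold tv; positivity
  rw [hE.ex_affine continuous_yy] at h2
  rw [Real.dist_eq, sub_zero] at h1 ⊢
  rw [adv_eq, abs_of_nonneg h3]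
  have h4 := (abs_lt.1 h1).2
  have h5 : 1 / (e / 2) * Ex (lk q p lam n) yy < e / 2 := by
    rw [one_div, inv_mul_eq_div, div_lt_iff₀ (half_pos he)]; nlinarith
  linarith

theorem Cert.nonrecon (C : Cert q ψ A B ε) {p : ℕ → ℝ} (hp : ∀ k, 0 ≤ p k) (hs : HasSum p 1)
    {d : ℝ} (hd : HasSum (fun k : ℕ => p k * k) d) {k0 : ℕ} (hk : 2 ≤ k0) (hpk : 0 < p k0)
    {lam : ℝ} (h0 : 0 ≤ lam) (h1 : lam ≤ 1) (hc : d * lam ^ 2 ≤ 1) : NonRecon q p lam := by
  have ha : Adm q lam := adm_of_nonneg h0 h1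
  refine nonrecon_of_chi hp hs ha ?_
  have hx : ∀ n, 0 ≤ Ex (lk q p lam n) yy := fun n =>
    (isExp_lk hp hs ha n).ex_nonneg continuous_yy (fun a _ => yy_nonneg a)
  have hst := C.step hp hs hd hk h0 h1
  rcases h0.eq_or_lt with h | h
  · subst h
    rw [← tendsto_add_atTop_iff_nat 1]
    refine tendsto_const_nhds.congr fun n => le_antisymm (hx _) ?_
    simpa using hst n
  · refine tendsto_zero_of_step (c := p k0 * ε * lam ^ 6) (by have := C.eps; positivity) hx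
      fun n => ?_
    have := mul_le_mul_of_nonneg_right hc (hx n)
    linarith [hst n]

end Vale.Agent.P154
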