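import Vale.Agent.P154.Pair

namespace Vale.Agent.P154

def psi3 : PS := [(302, [1, 1, 1, 1, 1]), (-903, [1, 1, 1, 2]), (1881, [1, 1, 3]), (-2313, [1, 2, 2]), (1269, [2, 3])]

def bb3 : PS := [(290833, [1, 1, 1, 1, 1, 1]), (-1721106, [1, 1, 1, 1, 2]), (1120959, [1, 1, 1, 3]), (2571156, [1, 1, 2, 2]), (-3362229, [1, 2, 3]), (-1701, [2, 2, 2]), (1102248, [3, 3])]

def aa3 : PS := [(-88069, [1, 1, 1, 1, 1, 1]), (439368, [1, 1, 1, 1, 2]), (-365463, [1, 1, 1, 3]), (-381249, [1, 1, 2, 2]), (813456, [1, 2, 3]), (-24732, [2, 2, 2]), (-375111, [3, 3])]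

def yp3 : PS := [(-1, [1, 1]), (3, [2])]

def yq3 : PS := [(1, [1, 1, 1, 1]), (-6, [1, 1, 2]), (9, [2, 2])]

def r03 : PS := [(70, [1, 1, 1, 1, 1]), (-467, [1, 1, 1, 2]), (141, [1, 1, 3]), (771, [1, 2, 2]), (-423, [2, 3])]

def r13 : PS := [(152, [1, 1, 1, 1, 1]), (-1053, [1, 1, 1, 2]), (423, [1, 1, 3]), (1791, [1, 2, 2]), (-1269, [2, 3])]

def pP3 : List Piece := [
  ⟨0, [(40584, [1, 1]), (1045512, [2])],
    [32768, -332800, 1148128, -1582595, 746025], [1], true, 831979165027663872⟩,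
  ⟨1, [(713076, [1, 1, 1]), (-2120400, [1, 2]), (1408104, [3])],
    [16384, -175104, 615536, -843765, 392175], [8, 171], false, 554652776685109248⟩,
  ⟨2, [(176448, [1, 1, 1, 1]), (-506304, [1, 1, 2]), (2673216, [1, 3]), (-2331936, [2, 2])],
    [512, -2640, 3907, -1785], [1024, 11584, 77631], true, 23110532361879552⟩,
  ⟨3, [(-39675, [1, 1, 1, 1, 1]), (241857, [1, 1, 1, 2]), (-74412, [1, 1, 3]), (-371223, [1, 2, 2]), (243648, [2, 3])],
    [1024, -5696, 9517, -4935], [8192, 91136, 608144, 3177673], false, 246512345193381888⟩]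

def oP3 : List Out := [
  ⟨-261125421662208, 0, [(1, [])], 0, [(1, [])]⟩,
  ⟨-33554432, 5, psi3, 6, bb3⟩,
  ⟨-33554432, 6, bb3, 5, psi3⟩]

def pD3 : List Piece := [
  ⟨0, [(432, [1, 1]), (-432, [2])],
    [512, -4048, 10407, -8613], [1], true, 2507653251072⟩]

def oD3 : List Out := [
  ⟨-25165824, 0, [(1, [])], 0, [(1, [])]⟩,
  ⟨12582912, 2, yp3, 0, [(1, [])]⟩,
  ⟨12582912, 0, [(1, [])], 2, yp3⟩,
  ⟨-1, 5, psi3, 6, aa3⟩,
  ⟨-1, 6, aa3, 5, psi3⟩,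
  ⟨-49152, 4, yq3, 2, yp3⟩]

lemma chkP3 : chkPair 2 10 500 pP3 oP3 = true := by decide +kernel

lemma chkD3 : chkPair 2 8 400 pD3 oD3 = true := by decide +kernel

lemma chkV3 : (chkPS 2 10 6 bb3 && chkPS 2 8 6 aa3 && chkPS 2 10 5 r03 && chkPS 2 10 5 r13) = true := by
  decide +kernel

end Vale.Agent.P154
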