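import Vale.Agent.P154.Pair

namespace Vale.Agent.P154

def psi4 : PS := [(423, [1, 1, 1, 1, 1]), (-2184, [1, 1, 1, 2]), (6016, [1, 1, 3]), (-4096, [1, 2, 2]), (-2624, [1, 4]), (2816, [2, 3])]

def bb4 : PS := [(-175137, [1, 1, 1, 1, 1, 1]), (1994372, [1, 1, 1, 1, 2]), (-3254256, [1, 1, 1, 3]), (-3981264, [1, 1, 2, 2]), (4370304, [1, 1, 4]), (2059008, [1, 2, 3]), (4151168, [2, 2, 2]), (-8324096, [2, 4]), (3160064, [3, 3])]

def aa4 : PS := [(-31663, [1, 1, 1, 1, 1, 1]), (262126, [1, 1, 1, 1, 2]), (-45352, [1, 1, 1, 3]), (-812520, [1, 1, 2, 2]), (-67328, [1, 1, 4]), (1143456, [1, 2, 3]), (398944, [2, 2, 2]), (-802944, [2, 4]), (-41728, [3, 3])]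

def yp4 : PS := [(-1, [1, 1]), (4, [2])]

def yq4 : PS := [(1, [1, 1, 1, 1]), (-8, [1, 1, 2]), (16, [2, 2])]

def r04 : PS := [(89, [1, 1, 1, 1, 1]), (-888, [1, 1, 1, 2]), (-1920, [1, 1, 3]), (4096, [1, 2, 2]), (2624, [1, 4]), (-2816, [2, 3])]

def r14 : PS := [(177, [1, 1, 1, 1, 1]), (-1768, [1, 1, 1, 2]), (-1216, [1, 1, 3]), (6208, [1, 2, 2]), (2624, [1, 4]), (-5632, [2, 3])]

def pP4 : List Piece := [
  ⟨0, [(-32376, [1, 1]), (130032, [2])],
    [1048576, -14024704, 70952960, -169093760, 190738389, -81860436], [1], true, 116056878683004400771792896⟩,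
  ⟨1, [(9181824, [1, 1, 1]), (-27582464, [1, 2]), (18470912, [3])],
    [32768, -455680, 2353920, -5538980, 5817307, -2196780], [16, 445], false, 453347182355485940514816⟩,
  ⟨2, [(-46592, [1, 1, 1, 1]), (340864, [1, 1, 2]), (1942528, [1, 3]), (-2624000, [2, 2]), (389120, [4])],
    [8192, -73984, 225728, -270861, 109620], [1024, 19520, 213651], true, 453347182355485940514816⟩,
  ⟨3, [(61, [1, 1, 1, 1, 1]), (44, [1, 1, 1, 2]), (180016, [1, 1, 3]), (-180144, [1, 2, 2]), (-180096, [1, 4]), (180224, [2, 3])],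
    [16384, -155648, 505936, -654717, 291060], [8192, 155648, 1712048, 14330005], false, 3626777458843887524118528⟩]

def oP4 : List Out := [
  ⟨-14886287928459264, 0, [(1, [])], 0, [(1, [])]⟩,
  ⟨-2147483648, 5, psi4, 6, bb4⟩,
  ⟨-2147483648, 6, bb4, 5, psi4⟩]

def pD4 : List Piece := [
  ⟨0, [(96, [1, 1]), (-96, [2])],
    [1024, -13120, 61541, -124712, 91728], [1], true, 432345564227567616⟩]

def oD4 : List Out := [
  ⟨-18874368, 0, [(1, [])], 0, [(1, [])]⟩,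
  ⟨6291456, 2, yp4, 0, [(1, [])]⟩,
  ⟨6291456, 0, [(1, [])], 2, yp4⟩,
  ⟨-1, 5, psi4, 6, aa4⟩,
  ⟨-1, 6, aa4, 5, psi4⟩,
  ⟨-24576, 4, yq4, 2, yp4⟩]

lemma chkP4 : chkPair 3 12 500 pP4 oP4 = true := by decide +kernel

lemma chkD4 : chkPair 3 10 400 pD4 oD4 = true := by decide +kernel

lemma chkV4 : (chkPS 3 12 6 bb4 && chkPS 3 10 6 aa4 && chkPS 3 12 5 r04 && chkPS 3 12 5 r14) = true := by
  decide +kernel

end Vale.Agent.P154
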