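import Vale.Agent.P154.Pot
import Vale.Agent.P154.Data3
import Vale.Agent.P154.Data4

namespace Vale.Agent.P154

open Finset

noncomputable def cm {q : ℕ} (k : ℕ) (a : Fin q → ℝ) : ℝ := ∑ i, (a i - 1) ^ k

lemma cm_shr {q : ℕ} (k : ℕ) (lam : ℝ) (a : Fin q → ℝ) : cm k (shr lam a) = lam ^ k * cm k a := by
  unfold cm shr
  rw [mul_sum]
  exact sum_congr rfl fun i _ => by rw [← mul_pow]; ring

lemma Simp.ps_cm {q : ℕ} {a : Fin q → ℝ} (ha : Simp a) :
    ps 1 a = q ∧ ps 2 a = cm 2 a + q ∧ ps 3 a = cm 3 a + 3 * cm 2 a + q ∧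
      ps 4 a = cm 4 a + 4 * cm 3 a + 6 * cm 2 a + q := by
  have h : ∀ (k : ℕ) (c4 c3 c2 c1 c0 : ℝ), (∀ x : ℝ, x ^ k = c4 * (x - 1) ^ 4 + c3 * (x - 1) ^ 3 +
      c2 * (x - 1) ^ 2 + c1 * x + c0) →
      ps k a = c4 * cm 4 a + c3 * cm 3 a + c2 * cm 2 a + (c1 + c0) * q := by
    intro k c4 c3 c2 c1 c0 h
    simp only [ps, cm, h, sum_add_distrib, ← mul_sum, ha.2]
    simp; ring
  refine ⟨ha.ps_one, ?_, ?_, ?_⟩
  · rw [h 2 0 0 1 2 (-1) (fun x => by ring)]; ring
  · rw [h 3 0 1 3 3 (-2) (fun x => by ring)]; ring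
  · rw [h 4 1 4 6 4 (-3) (fun x => by ring)]; ring

lemma ps_vertex {q : ℕ} (i : Fin q) (k : ℕ) :
    ps (k + 1) (fun j => if i = j then (q : ℝ) else 0) = q ^ (k + 1) := by
  simp [ps]

lemma ps_center {q : ℕ} (k : ℕ) : ps k (fun _ : Fin q => (1 : ℝ)) = q := by simp [ps]

lemma yy_cm {q : ℕ} (a : Fin q → ℝ) : yy a = cm 2 a / q := rfl

lemma yp4_eq {a : Fin 4 → ℝ} (ha : Simp a) : evPS yp4 a = 16 * yy a := by
  obtain ⟨h1, h2, -, -⟩ := ha.ps_cm
  simp only [evPS, yp4, List.map_cons, List.map_nil, List.sum_cons, List.sum_nil, List.prod_cons,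
    List.prod_nil, h1, h2, yy_cm]
  push_cast; ring

lemma yq4_eq {a : Fin 4 → ℝ} (ha : Simp a) : evPS yq4 a = 256 * yy a ^ 2 := by
  obtain ⟨h1, h2, -, -⟩ := ha.ps_cm
  simp only [evPS, yq4, List.map_cons, List.map_nil, List.sum_cons, List.sum_nil, List.prod_cons,
    List.prod_nil, h1, h2, yy_cm]
  push_cast; ring

theorem cert4 : Cert 4 (evPS psi4) (fun a => 1 / (262144 * 100663296) * evPS aa4 a)
    (fun a => 1 / 67108864 * evPS bb4 a) (1 / 256) := by
  have hV := chkV4
  simp only [Bool.and_eq_true] at hV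
  obtain ⟨⟨⟨hB, hA⟩, h0⟩, h1⟩ := hV
  have one : ∀ a : Fin 4 → ℝ, evPS [(1, [])] a = 1 := fun a => by simp [evPS]
  refine ⟨continuous_evPS _, (continuous_evPS _).const_mul _, (continuous_evPS _).const_mul _,
    by norm_num, fun i => ?_, ?_, fun a ha lam l0 l1 => ?_,
    fun a ha => mul_nonneg (by norm_num) (chkPS_sound link4 hA ha),
    fun a ha => mul_nonneg (by norm_num) (chkPS_sound link4 hB ha),
    fun a b ha hb => ?_, fun a b ha hb => ?_⟩
  · simp only [evPS, psi4, List.map_cons, List.map_nil, List.sum_cons, List.sum_nil,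
      List.prod_cons, List.prod_nil, ps_vertex i 0, ps_vertex i 1, ps_vertex i 2, ps_vertex i 3]
    norm_num
  · simp only [evPS, psi4, List.map_cons, List.map_nil, List.sum_cons, List.sum_nil,
      List.prod_cons, List.prod_nil, ps_center]
    norm_num
  · have e0 := chkPS_sound link4 h0 ha
    have e1 := chkPS_sound link4 h1 ha
    have c := mul_nonneg (pow_nonneg l0 3) (sub_nonneg.2 l1)
    have f0 := mul_nonneg (mul_nonneg c (sub_nonneg.2 l1)) e0
    have f1 := mul_nonneg (mul_nonneg c l0) e1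
    obtain ⟨p1, p2, p3, p4⟩ := ha.ps_cm
    obtain ⟨s1, s2, s3, s4⟩ := (ha.shr (adm_of_nonneg l0 l1)).ps_cm
    simp only [evPS, psi4, r04, r14, List.map_cons, List.map_nil, List.sum_cons, List.sum_nil,
      List.prod_cons, List.prod_nil, p1, p2, p3, p4, s1, s2, s3, s4, cm_shr] at f0 f1 ⊢
    push_cast at f0 f1 ⊢
    linarith
  · have h := chkPair_sound link4 chkD4 ha hb
    rw [avg_congr (G := fun x => -166020696663385964544 * yy x + 498062089990157893632) (fun x hx => by
      obtain ⟨p1, p2, -, -⟩ := hx.ps_cm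
      simp only [evPS, pD4, List.map_cons, List.map_nil, List.sum_cons, List.sum_nil,
        List.prod_cons, List.prod_nil, p1, p2, yy_cm]
      push_cast; ring) ha hb, avg_affine _ _ _ ha hb] at h
    simp only [oD4, List.map_cons, List.map_nil, List.sum_cons, List.sum_nil, one, yp4_eq ha,
      yp4_eq hb, yq4_eq ha] at h
    norm_num [Nat.factorial] at h
    linarith
  · have h := chkPair_sound link4 chkP4 ha hb
    rw [avg_congr (G := fun x => 232113757366008801543585792 * evPS psi4 x + 100562821151308581251155457212416) (fun x hx => by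
      simp only [evPS, pP4, psi4, List.map_cons, List.map_nil, List.sum_cons, List.sum_nil,
        List.prod_cons, List.prod_nil, hx.ps_one]
      push_cast; ring) ha hb, avg_affine _ _ _ ha hb] at h
    simp only [oP4, List.map_cons, List.map_nil, List.sum_cons, List.sum_nil, one] at h
    norm_num [Nat.factorial] at h
    linarith

lemma yp3_eq {a : Fin 3 → ℝ} (ha : Simp a) : evPS yp3 a = 9 * yy a := by
  obtain ⟨h1, h2, -, -⟩ := ha.ps_cm
  simp only [evPS, yp3, List.map_cons, List.map_nil, List.sum_cons, List.sum_nil, List.prod_cons,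
    List.prod_nil, h1, h2, yy_cm]
  push_cast; ring

lemma yq3_eq {a : Fin 3 → ℝ} (ha : Simp a) : evPS yq3 a = 81 * yy a ^ 2 := by
  obtain ⟨h1, h2, -, -⟩ := ha.ps_cm
  simp only [evPS, yq3, List.map_cons, List.map_nil, List.sum_cons, List.sum_nil, List.prod_cons,
    List.prod_nil, h1, h2, yy_cm]
  push_cast; ring

theorem cert3 : Cert 3 (evPS psi3) (fun a => 1 / (62208 * 35831808) * evPS aa3 a)
    (fun a => 1 / 11943936 * evPS bb3 a) (1 / 256) := by
  have hV := chkV3
  simp only [Bool.and_eq_true] at hV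
  obtain ⟨⟨⟨hB, hA⟩, h0⟩, h1⟩ := hV
  have one : ∀ a : Fin 3 → ℝ, evPS [(1, [])] a = 1 := fun a => by simp [evPS]
  refine ⟨continuous_evPS _, (continuous_evPS _).const_mul _, (continuous_evPS _).const_mul _,
    by norm_num, fun i => ?_, ?_, fun a ha lam l0 l1 => ?_,
    fun a ha => mul_nonneg (by norm_num) (chkPS_sound link3 hA ha),
    fun a ha => mul_nonneg (by norm_num) (chkPS_sound link3 hB ha),
    fun a b ha hb => ?_, fun a b ha hb => ?_⟩
  · simp only [evPS, psi3, List.map_cons, List.map_nil, List.sum_cons, List.sum_nil,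
      List.prod_cons, List.prod_nil, ps_vertex i 0, ps_vertex i 1, ps_vertex i 2, ps_vertex i 3]
    norm_num
  · simp only [evPS, psi3, List.map_cons, List.map_nil, List.sum_cons, List.sum_nil,
      List.prod_cons, List.prod_nil, ps_center]
    norm_num
  · have e0 := chkPS_sound link3 h0 ha
    have e1 := chkPS_sound link3 h1 ha
    have c := mul_nonneg (pow_nonneg l0 3) (sub_nonneg.2 l1)
    have f0 := mul_nonneg (mul_nonneg c (sub_nonneg.2 l1)) e0
    have f1 := mul_nonneg (mul_nonneg c l0) e1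
    obtain ⟨p1, p2, p3, p4⟩ := ha.ps_cm
    obtain ⟨s1, s2, s3, s4⟩ := (ha.shr (adm_of_nonneg l0 l1)).ps_cm
    simp only [evPS, psi3, r03, r13, List.map_cons, List.map_nil, List.sum_cons, List.sum_nil,
      List.prod_cons, List.prod_nil, p1, p2, p3, p4, s1, s2, s3, s4, cm_shr] at f0 f1 ⊢
    push_cast at f0 f1 ⊢
    linarith
  · have h := chkPair_sound link3 chkD3 ha hb
    rw [avg_congr (G := fun x => -3249918613389312 * yy x + 6499837226778624) (fun x hx => by
      obtain ⟨p1, p2, -, -⟩ := hx.ps_cm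
      simp only [evPS, pD3, List.map_cons, List.map_nil, List.sum_cons, List.sum_nil,
        List.prod_cons, List.prod_nil, p1, p2, yy_cm]
      push_cast; ring) ha hb, avg_affine _ _ _ ha hb] at h
    simp only [oD3, List.map_cons, List.map_nil, List.sum_cons, List.sum_nil, one, yp3_eq ha,
      yp3_eq hb, yq3_eq ha] at h
    norm_num [Nat.factorial] at h
    linarith
  · have h := chkPair_sound link3 chkP3 ha hb
    rw [avg_congr (G := fun x => 47330370277129322496 * evPS psi3 x + 5462928281738006073704448) (fun x hx => by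
      simp only [evPS, pP3, psi3, List.map_cons, List.map_nil, List.sum_cons, List.sum_nil,
        List.prod_cons, List.prod_nil, hx.ps_one]
      push_cast; ring) ha hb, avg_affine _ _ _ ha hb] at h
    simp only [oP3, List.map_cons, List.map_nil, List.sum_cons, List.sum_nil, one] at h
    norm_num [Nat.factorial] at h
    linarith

end Vale.Agent.P154
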