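import Mathlib

namespace Vale.Agent.P154

/-- What the observer sees at level `n`: the first `n` generations of the (plane) tree together
with the spins of generation `n`.  At level `0` it is the spin of the root; at level `n+1` it is
the number `k` of children of the root and, for each child, what is seen of its subtree. -/
def Obs (q : ℕ) : ℕ → Type
  | 0 => Fin q
  | n + 1 => Σ k : ℕ, Fin k → Obs q n

/-- The Potts channel `P(j | i)`. -/
noncomputable def potts (q : ℕ) (lam : ℝ) (i j : Fin q) : ℝ :=
  (if i = j then lam else 0) + (1 - lam) / q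

/-- Probability of the observation `o` given that the root has spin `i`, when the offspring
numbers are independent with law `p` and every edge applies the Potts channel independently. -/
noncomputable def law (q : ℕ) (p : ℕ → ℝ) (lam : ℝ) : (n : ℕ) → Fin q → Obs q n → ℝ
  | 0, i, o => (fun s : Fin q => if s = i then (1 : ℝ) else 0) o
  | n + 1, i, o => p o.1 * ∏ c : Fin o.1, ∑ j : Fin q, potts q lam i j * law q p lam n j (o.2 c)

/-- Probability of the observation `o` when the root spin is uniform. -/
noncomputable def marg (q : ℕ) (p : ℕ → ℝ) (lam : ℝ) (n : ℕ) (o : Obs q n) : ℝ :=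
  ∑ i : Fin q, 1 / (q : ℝ) * law q p lam n i o

/-- Posterior probability that the root has spin `i` given the observation `o` (Bayes). -/
noncomputable def post (q : ℕ) (p : ℕ → ℝ) (lam : ℝ) (n : ℕ) (o : Obs q n) (i : Fin q) : ℝ :=
  1 / (q : ℝ) * law q p lam n i o / marg q p lam n o

/-- The reconstruction advantage `a_n`. -/
noncomputable def adv (q : ℕ) (p : ℕ → ℝ) (lam : ℝ) (n : ℕ) : ℝ :=
  ∑' o : Obs q n, marg q p lam n o * (1 / 2 * ∑ i : Fin q, |post q p lam n o i - 1 / q|)

/-- Offspring law of the `d`-ary tree. -/
def dary (d : ℕ) (k : ℕ) : ℝ := if k = d then 1 else 0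

/-- Poisson offspring law with mean `d`. -/
noncomputable def poisson (d : ℝ) (k : ℕ) : ℝ := Real.exp (-d) * d ^ k / k.factorial

/-- Reconstruction: `a_n` tends to a positive limit. -/
def Recon (q : ℕ) (p : ℕ → ℝ) (lam : ℝ) : Prop :=
  ∃ L : ℝ, 0 < L ∧ Filter.Tendsto (adv q p lam) Filter.atTop (nhds L)

/-- Nonreconstruction: `a_n` tends to `0`. -/
def NonRecon (q : ℕ) (p : ℕ → ℝ) (lam : ℝ) : Prop :=
  Filter.Tendsto (adv q p lam) Filter.atTop (nhds 0)

end Vale.Agent.P154
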