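import Vale.Agent.P154.Defs

namespace Vale.Agent.P154

open Equiv Finset

variable {q : ℕ}

noncomputable def Zm (w : Fin q → ℝ) : ℝ := (∑ i, w i) / q

noncomputable def hom (F : (Fin q → ℝ) → ℝ) (w : Fin q → ℝ) : ℝ :=
  Zm w * F (fun i => w i / Zm w)

def Simp (a : Fin q → ℝ) : Prop := (∀ i, 0 ≤ a i) ∧ ∑ i, a i = q

structure IsExp {O : Type} (W : O → Fin q → ℝ) : Prop where
  nonneg : ∀ o i, 0 ≤ W o i
  sum : ∀ i, HasSum (fun o => W o i) 1
  symm : ∀ σ : Perm (Fin q), ∃ e : O ≃ O, ∀ o, W (e o) = W o ∘ σ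

noncomputable def Ex {O : Type} (W : O → Fin q → ℝ) (F : (Fin q → ℝ) → ℝ) : ℝ :=
  ∑' o, hom F (W o)

lemma Zm_nonneg {w : Fin q → ℝ} (hw : ∀ i, 0 ≤ w i) : 0 ≤ Zm w :=
  div_nonneg (sum_nonneg fun i _ => hw i) (Nat.cast_nonneg _)

lemma Zm_smul (c : ℝ) (w : Fin q → ℝ) : Zm (c • w) = c * Zm w := by
  simp [Zm, ← mul_sum, mul_div_assoc]

lemma hom_smul (F : (Fin q → ℝ) → ℝ) (c : ℝ) (w : Fin q → ℝ) :
    hom F (c • w) = c * hom F w := by
  by_cases hc : c = 0
  · simp [hc, hom, Zm]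
  · unfold hom
    rw [Zm_smul, mul_assoc]
    congr 3
    ext i
    simp [mul_div_mul_left _ _ hc]

variable [NeZero q]

lemma qpos : (0 : ℝ) < q := by exact_mod_cast Nat.pos_of_ne_zero (NeZero.ne q)

lemma Simp.zm {a : Fin q → ℝ} (ha : Simp a) : Zm a = 1 := by
  rw [Zm, ha.2, div_self qpos.ne']

lemma Simp.hom {a : Fin q → ℝ} (ha : Simp a) (F : (Fin q → ℝ) → ℝ) : hom F a = F a := by
  simp [P154.hom, ha.zm]

lemma simp_one : Simp (fun _ : Fin q => (1 : ℝ)) := ⟨fun _ => zero_le_one, by simp⟩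

lemma exists_simp {w : Fin q → ℝ} (hw : ∀ i, 0 ≤ w i) :
    ∃ a, Simp a ∧ w = Zm w • a := by
  by_cases h : Zm w = 0
  · refine ⟨fun _ => 1, simp_one, ?_⟩
    have h1 : ∑ i, w i = 0 := by
      rcases div_eq_zero_iff.1 h with h | h
      · exact h
      · exact absurd h qpos.ne'
    ext i
    simp [h, (sum_eq_zero_iff_of_nonneg (fun i _ => hw i)).1 h1 i (mem_univ _)]
  · refine ⟨fun i => w i / Zm w, ⟨fun i => div_nonneg (hw i) (Zm_nonneg hw), ?_⟩, ?_⟩
    · rw [← sum_div, div_eq_iff h, Zm, mul_div_cancel₀ _ qpos.ne']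
    · ext i; simp [mul_div_cancel₀ _ h]

lemma hom_le {F G : (Fin q → ℝ) → ℝ} (h : ∀ a, Simp a → F a ≤ G a) {w : Fin q → ℝ}
    (hw : ∀ i, 0 ≤ w i) : hom F w ≤ hom G w := by
  obtain ⟨a, ha, e⟩ := exists_simp hw
  rw [e, hom_smul, hom_smul, ha.hom, ha.hom]
  exact mul_le_mul_of_nonneg_left (h a ha) (Zm_nonneg hw)

lemma exists_bound {F : (Fin q → ℝ) → ℝ} (hF : Continuous F) :
    ∃ K, ∀ a, Simp a → |F a| ≤ K := by
  obtain ⟨K, hK⟩ := (isCompact_Icc (a := fun _ : Fin q => (0 : ℝ))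
    (b := fun _ => (q : ℝ))).exists_bound_of_continuousOn hF.continuousOn
  refine ⟨K, fun a ha => hK a ⟨fun i => ha.1 i, fun i => ?_⟩⟩
  rw [← ha.2]
  exact single_le_sum (fun j _ => ha.1 j) (mem_univ i)

lemma abs_hom_le {F : (Fin q → ℝ) → ℝ} {K : ℝ} (h : ∀ a, Simp a → |F a| ≤ K) {w : Fin q → ℝ}
    (hw : ∀ i, 0 ≤ w i) : |hom F w| ≤ K * Zm w := by
  obtain ⟨a, ha, e⟩ := exists_simp hw
  have h0 := Zm_nonneg hw
  conv_lhs => rw [e, hom_smul, ha.hom, abs_mul, abs_of_nonneg h0, mul_comm]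
  exact mul_le_mul_of_nonneg_right (h a ha) h0

variable {O O' : Type} {W : O → Fin q → ℝ} {V : O' → Fin q → ℝ}

lemma IsExp.hasSum_Zm (hW : IsExp W) : HasSum (fun o => Zm (W o)) 1 := by
  have := (hasSum_sum (s := univ) (fun i _ => hW.sum i)).div_const (q : ℝ)
  simpa [Zm, div_self (qpos (q := q)).ne'] using this

lemma IsExp.summable_norm (hW : IsExp W) {F : (Fin q → ℝ) → ℝ} (hF : Continuous F) :
    Summable fun o => ‖hom F (W o)‖ := by
  obtain ⟨K, hK⟩ := exists_bound hF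
  exact Summable.of_nonneg_of_le (fun _ => norm_nonneg _)
    (fun o => abs_hom_le hK (hW.nonneg o)) (hW.hasSum_Zm.summable.mul_left K)

lemma IsExp.hasSum (hW : IsExp W) {F : (Fin q → ℝ) → ℝ} (hF : Continuous F) :
    HasSum (fun o => hom F (W o)) (Ex W F) :=
  (hW.summable_norm hF).of_norm.hasSum

lemma IsExp.ex_le (hW : IsExp W) {F G : (Fin q → ℝ) → ℝ} (hF : Continuous F)
    (hG : Continuous G) (h : ∀ a, Simp a → F a ≤ G a) : Ex W F ≤ Ex W G :=
  hasSum_le (fun o => hom_le h (hW.nonneg o)) (hW.hasSum hF) (hW.hasSum hG)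

lemma IsExp.ex_affine (hW : IsExp W) {F : (Fin q → ℝ) → ℝ} (hF : Continuous F) (c e : ℝ) :
    Ex W (fun a => c * F a + e) = c * Ex W F + e := by
  have := ((hW.hasSum hF).mul_left c).add (hW.hasSum_Zm.mul_left e)
  rw [mul_one] at this
  refine HasSum.tsum_eq ?_
  have e1 : (fun o => hom (fun a => c * F a + e) (W o))
      = fun o => c * hom F (W o) + e * Zm (W o) := by
    ext o; simp only [hom]; ring
  rw [e1]; exact this

lemma IsExp.ex_const (hW : IsExp W) (e : ℝ) : Ex W (fun _ => e) = e := by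
  simpa using hW.ex_affine (F := fun _ => 0) continuous_const 0 e

lemma IsExp.ex_nonneg (hW : IsExp W) {F : (Fin q → ℝ) → ℝ} (hF : Continuous F)
    (h : ∀ a, Simp a → 0 ≤ F a) : 0 ≤ Ex W F := by
  have := hW.ex_le continuous_const hF h
  rwa [hW.ex_const] at this

lemma IsExp.abs_ex_le (hW : IsExp W) {F : (Fin q → ℝ) → ℝ} (hF : Continuous F) {K : ℝ}
    (h : ∀ a, Simp a → |F a| ≤ K) : |Ex W F| ≤ K := by
  have h1 := hW.ex_le hF continuous_const (fun a ha => (abs_le.1 (h a ha)).2)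
  have h2 := hW.ex_le continuous_const hF (fun a ha => (abs_le.1 (h a ha)).1)
  rw [hW.ex_const] at h1 h2
  exact abs_le.2 ⟨h2, h1⟩

omit [NeZero q] in
lemma IsExp.equiv (hW : IsExp W) (e : O' ≃ O) : IsExp (fun o => W (e o)) where
  nonneg o := hW.nonneg _
  sum i := (e.hasSum_iff (f := fun o => W o i)).2 (hW.sum i)
  symm σ := by
    obtain ⟨f, hf⟩ := hW.symm σ
    exact ⟨e.trans (f.trans e.symm), fun o => by simp [hf]⟩

omit [NeZero q] in
lemma Ex_equiv (W : O → Fin q → ℝ) (e : O' ≃ O) (F : (Fin q → ℝ) → ℝ) :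
    Ex (fun o => W (e o)) F = Ex W F :=
  e.tsum_eq (fun o => hom F (W o))

/-- product of two experiments -/
def prodE (W : O → Fin q → ℝ) (V : O' → Fin q → ℝ) (o : O × O') : Fin q → ℝ := W o.1 * V o.2

lemma hasSum_mul' {f : O → ℝ} {g : O' → ℝ} {s t : ℝ} (hf : HasSum f s) (hg : HasSum g t) :
    HasSum (fun o : O × O' => f o.1 * g o.2) (s * t) :=
  hf.mul hg (summable_mul_of_summable_norm hf.summable.norm hg.summable.norm)

omit [NeZero q] in
lemma IsExp.prod (hW : IsExp W) (hV : IsExp V) : IsExp (prodE W V) where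
  nonneg o i := mul_nonneg (hW.nonneg _ _) (hV.nonneg _ _)
  sum i := by simpa [prodE] using hasSum_mul' (hW.sum i) (hV.sum i)
  symm σ := by
    obtain ⟨e, he⟩ := hW.symm σ
    obtain ⟨f, hf⟩ := hV.symm σ
    exact ⟨e.prodCongr f, fun o => by ext i; simp [prodE, he, hf]⟩

/-- symmetrised product functional -/
noncomputable def avg (F : (Fin q → ℝ) → ℝ) (a b : Fin q → ℝ) : ℝ :=
  (∑ σ : Perm (Fin q), hom F (a * b ∘ σ)) / q.factorial

lemma IsExp.hasSum_avg (hW : IsExp W) (hV : IsExp V) {F : (Fin q → ℝ) → ℝ} (hF : Continuous F) :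
    HasSum (fun o : O × O' => avg F (W o.1) (V o.2)) (Ex (prodE W V) F) := by
  have h1 : ∀ σ : Perm (Fin q), HasSum (fun o : O × O' => hom F (W o.1 * V o.2 ∘ σ))
      (Ex (prodE W V) F) := by
    intro σ
    obtain ⟨f, hf⟩ := hV.symm σ
    have := (((Equiv.refl O).prodCongr f).hasSum_iff).2 ((hW.prod hV).hasSum hF)
    convert this using 2 with o
    simp [prodE, hf]
  have := (hasSum_sum (s := univ) (fun σ _ => h1 σ)).div_const (q.factorial : ℝ)
  have h0 : (q.factorial : ℝ) ≠ 0 := by exact_mod_cast q.factorial_ne_zero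
  simpa [avg, Fintype.card_perm, mul_div_cancel_left₀ _ h0] using this

omit [NeZero q] in
lemma avg_smul (F : (Fin q → ℝ) → ℝ) (c e : ℝ) (a b : Fin q → ℝ) :
    avg F (c • a) (e • b) = c * e * avg F a b := by
  unfold avg
  rw [← mul_div_assoc, mul_sum]
  congr 1
  refine sum_congr rfl fun σ _ => ?_
  rw [← hom_smul]
  congr 1
  ext i; simp; ring

/-- the main two-point comparison -/
lemma IsExp.prod_ge (hW : IsExp W) (hV : IsExp V) {F : (Fin q → ℝ) → ℝ} (hF : Continuous F)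
    {ι : Type} (s : Finset ι) {G H : ι → (Fin q → ℝ) → ℝ} (hG : ∀ i, Continuous (G i))
    (hH : ∀ i, Continuous (H i))
    (h : ∀ a b, Simp a → Simp b → ∑ i ∈ s, G i a * H i b ≤ avg F a b) :
    ∑ i ∈ s, Ex W (G i) * Ex V (H i) ≤ Ex (prodE W V) F := by
  refine hasSum_le ?_ (hasSum_sum (s := s)
    (fun i _ => hasSum_mul' (hW.hasSum (hG i)) (hV.hasSum (hH i)))) (hW.hasSum_avg hV hF)
  intro o
  obtain ⟨a, ha, ea⟩ := exists_simp (hW.nonneg o.1)
  obtain ⟨b, hb, eb⟩ := exists_simp (hV.nonneg o.2)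
  have h1 := Zm_nonneg (hW.nonneg o.1)
  have h2 := Zm_nonneg (hV.nonneg o.2)
  generalize Zm (W o.1) = x at *
  generalize Zm (V o.2) = y at *
  simp only [ea, eb, avg_smul, hom_smul, ha.hom, hb.hom]
  calc _ = x * y * ∑ i ∈ s, G i a * H i b := by
        rw [mul_sum]; exact sum_congr rfl fun i _ => by ring
    _ ≤ _ := mul_le_mul_of_nonneg_left (h a b ha hb) (mul_nonneg h1 h2)

/-- the channel acting on likelihood vectors -/
noncomputable def shE (lam : ℝ) (W : O → Fin q → ℝ) (o : O) (i : Fin q) : ℝ :=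
  ∑ j, potts q lam i j * W o j

def shr (lam : ℝ) (a : Fin q → ℝ) (i : Fin q) : ℝ := lam * a i + (1 - lam)

omit [NeZero q] in
lemma shE_eq (lam : ℝ) (W : O → Fin q → ℝ) (o : O) (i : Fin q) :
    shE lam W o i = lam * W o i + (1 - lam) * Zm (W o) := by
  simp only [shE, potts, add_mul, sum_add_distrib, ite_mul, zero_mul, sum_ite_eq, mem_univ,
    if_true, ← mul_sum, Zm]
  ring

omit [NeZero q] in
lemma continuous_shr (lam : ℝ) : Continuous (shr (q := q) lam) := by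
  unfold shr; fun_prop

/-- admissibility of the channel parameter -/
def Adm (q : ℕ) (lam : ℝ) : Prop := lam ≤ 1 ∧ 0 ≤ lam * (q - 1) + 1

lemma Adm.potts_nonneg {lam : ℝ} (h : Adm q lam) (i j : Fin q) : 0 ≤ potts q lam i j := by
  have hq := qpos (q := q)
  unfold potts
  split_ifs
  · have : lam + (1 - lam) / q = (lam * (q - 1) + 1) / q := by field_simp; ring
    rw [this]; exact div_nonneg h.2 hq.le
  · rw [zero_add]; exact div_nonneg (sub_nonneg.2 h.1) hq.le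

lemma IsExp.sh (hW : IsExp W) {lam : ℝ} (h : Adm q lam) : IsExp (shE lam W) where
  nonneg o i := sum_nonneg fun j _ => mul_nonneg (h.potts_nonneg i j) (hW.nonneg o j)
  sum i := by
    simp only [shE_eq]
    simpa using ((hW.sum i).mul_left lam).add (hW.hasSum_Zm.mul_left (1 - lam))
  symm σ := by
    obtain ⟨e, he⟩ := hW.symm σ
    refine ⟨e, fun o => ?_⟩
    ext i
    simp only [shE_eq, he, Function.comp, Zm]
    rw [Equiv.sum_comp σ (W o)]

lemma Simp.shr {a : Fin q → ℝ} (ha : Simp a) {lam : ℝ} (h : Adm q lam) : Simp (shr lam a) := by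
  refine ⟨fun i => ?_, ?_⟩
  · have := shE_eq lam (fun _ : Unit => a) () i
    rw [ha.zm, mul_one] at this
    unfold P154.shr
    rw [← this]
    exact sum_nonneg fun j _ => mul_nonneg (h.potts_nonneg i j) (ha.1 j)
  · simp only [P154.shr, sum_add_distrib, ← mul_sum, ha.2]
    simp; ring

lemma IsExp.ex_sh (hW : IsExp W) {lam : ℝ} (h : Adm q lam) (F : (Fin q → ℝ) → ℝ) :
    Ex (shE lam W) F = Ex W (fun a => F (shr lam a)) := by
  unfold Ex
  congr 1
  ext o
  obtain ⟨a, ha, ea⟩ := exists_simp (hW.nonneg o)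
  have : shE lam W o = Zm (W o) • shr lam a := by
    ext i
    rw [shE_eq]
    have := congrFun ea i
    simp only [Pi.smul_apply, smul_eq_mul, shr] at this ⊢
    rw [this]; ring
  rw [this, hom_smul, (ha.shr h).hom]
  conv_rhs => rw [ea, hom_smul, ha.hom]

/-- `k` independent copies -/
def powE (W : O → Fin q → ℝ) (k : ℕ) (f : Fin k → O) (i : Fin q) : ℝ := ∏ c, W (f c) i

omit [NeZero q] in
lemma powE_succ (W : O → Fin q → ℝ) (k : ℕ) :
    powE W (k + 1) = fun f => prodE W (powE W k) ((Fin.consEquiv fun _ => O).symm f) := by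
  ext f i
  simp [powE, prodE, Fin.prod_univ_succ, Fin.consEquiv, Fin.tail]

omit [NeZero q] in
lemma IsExp.pow (hW : IsExp W) : ∀ k, IsExp (powE W k)
  | 0 => ⟨fun _ _ => by simp [powE], fun i => by
      simpa [powE] using hasSum_unique (fun _ : Fin 0 → O => (1 : ℝ)),
      fun σ => ⟨Equiv.refl _, fun o => by ext i; simp [powE]⟩⟩
  | k + 1 => by rw [powE_succ]; exact (hW.prod (hW.pow k)).equiv _

omit [NeZero q] in
lemma Ex_pow_succ (W : O → Fin q → ℝ) (k : ℕ) (F : (Fin q → ℝ) → ℝ) :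
    Ex (powE W (k + 1)) F = Ex (prodE W (powE W k)) F := by
  rw [powE_succ]; exact Ex_equiv _ _ _

lemma Ex_pow_zero (W : O → Fin q → ℝ) (F : (Fin q → ℝ) → ℝ) :
    Ex (powE W 0) F = F (fun _ => 1) := by
  unfold Ex
  rw [tsum_fintype, Fintype.sum_unique, ← simp_one.hom F]
  rfl

omit [NeZero q] in
lemma Ex_pow_one (W : O → Fin q → ℝ) (F : (Fin q → ℝ) → ℝ) : Ex (powE W 1) F = Ex W F := by
  rw [← Ex_equiv W (Equiv.funUnique (Fin 1) O)]
  congr 1
  ext f i
  simp [powE]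

/-- mixture over a revealed random index -/
def mixE {T : ℕ → Type} (p : ℕ → ℝ) (U : ∀ k, T k → Fin q → ℝ) (o : Σ k, T k) : Fin q → ℝ :=
  p o.1 • U o.1 o.2

lemma hasSum_sigma_nonneg {T : ℕ → Type} {f : (Σ k, T k) → ℝ} (h0 : ∀ o, 0 ≤ f o) {g : ℕ → ℝ}
    {s : ℝ} (h1 : ∀ k, HasSum (fun t => f ⟨k, t⟩) (g k)) (h2 : HasSum g s) : HasSum f s := by
  have hs : Summable f := by
    refine (summable_sigma_of_nonneg h0).2 ⟨fun k => (h1 k).summable, ?_⟩
    simpa [fun k => (h1 k).tsum_eq] using h2.summable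
  have := hs.hasSum.sigma h1
  rw [← this.unique h2]
  exact hs.hasSum

omit [NeZero q] in
lemma IsExp.mix {T : ℕ → Type} {p : ℕ → ℝ} (hp : ∀ k, 0 ≤ p k) (hs : HasSum p 1)
    {U : ∀ k, T k → Fin q → ℝ} (hU : ∀ k, IsExp (U k)) : IsExp (mixE p U) where
  nonneg o i := mul_nonneg (hp _) ((hU _).nonneg _ _)
  sum i := hasSum_sigma_nonneg (fun o => mul_nonneg (hp _) ((hU _).nonneg _ _))
    (fun k => by simpa [mixE] using ((hU k).sum i).mul_left (p k)) hs
  symm σ := by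
    choose e he using fun k => (hU k).symm σ
    refine ⟨Equiv.sigmaCongrRight e, fun o => ?_⟩
    ext i
    change p o.1 * U o.1 (e o.1 o.2) i = p o.1 * U o.1 o.2 (σ i)
    rw [he]; rfl

lemma IsExp.hasSum_mix {T : ℕ → Type} {p : ℕ → ℝ} (hp : ∀ k, 0 ≤ p k) (hs : HasSum p 1)
    {U : ∀ k, T k → Fin q → ℝ} (hU : ∀ k, IsExp (U k)) {F : (Fin q → ℝ) → ℝ}
    (hF : Continuous F) : HasSum (fun k => p k * Ex (U k) F) (Ex (mixE p U) F) := by
  refine ((IsExp.mix hp hs hU).hasSum hF).sigma fun k => ?_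
  simpa [mixE, hom_smul] using ((hU k).hasSum hF).mul_left (p k)

/-- the likelihood vectors of the tree experiment -/
noncomputable def lk (q : ℕ) (p : ℕ → ℝ) (lam : ℝ) (n : ℕ) (o : Obs q n) (i : Fin q) : ℝ :=
  law q p lam n i o

omit [NeZero q] in
lemma lk_succ (p : ℕ → ℝ) (lam : ℝ) (n : ℕ) :
    lk q p lam (n + 1) = mixE p (powE (shE lam (lk q p lam n))) := by
  ext o i
  rfl

omit [NeZero q] in
lemma lk_zero (p : ℕ → ℝ) (lam : ℝ) :
    lk q p lam 0 = fun (o : Fin q) (i : Fin q) => if o = i then (1 : ℝ) else 0 := rfl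

lemma isExp_lk {p : ℕ → ℝ} (hp : ∀ k, 0 ≤ p k) (hs : HasSum p 1) {lam : ℝ} (h : Adm q lam) :
    ∀ n, IsExp (lk q p lam n)
  | 0 => by
    change IsExp (fun (o : Fin q) (i : Fin q) => if o = i then (1 : ℝ) else 0)
    refine ⟨fun o i => by positivity, fun i => hasSum_ite_eq i 1, fun σ => ⟨σ.symm, fun o => ?_⟩⟩
    ext i
    simp [Equiv.symm_apply_eq]
  | n + 1 => by
    rw [lk_succ]
    exact IsExp.mix hp hs ((isExp_lk hp hs h n).sh h).pow

/-- total variation functional -/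
noncomputable def tv (a : Fin q → ℝ) : ℝ := (∑ i, |a i - 1|) / (2 * q)

lemma adv_eq (p : ℕ → ℝ) (lam : ℝ) (n : ℕ) : adv q p lam n = Ex (lk q p lam n) tv := by
  have hq := qpos (q := q)
  unfold adv Ex
  congr 1
  ext o
  have h1 : marg q p lam n o = Zm (lk q p lam n o) := by
    simp only [marg, Zm, lk, ← mul_sum]; ring
  simp only [post, hom, tv, h1]
  congr 1
  rw [eq_div_iff (by positivity), mul_sum, sum_mul]
  refine sum_congr rfl fun i _ => ?_
  have : 1 / (q : ℝ) * law q p lam n i o / Zm (lk q p lam n o) - 1 / q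
      = 1 / q * (lk q p lam n o i / Zm (lk q p lam n o) - 1) := by unfold lk; ring
  rw [this, abs_mul, abs_of_pos (by positivity : 0 < 1 / (q : ℝ))]
  field_simp

end Vale.Agent.P154
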