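import Vale.Agent.P154.Pot

namespace Vale.Agent.P154

open Equiv Finset Filter

/-! Monotonicity of the advantage -/

variable {q : ℕ}

structure SubL (h : (Fin q → ℝ) → ℝ) : Prop where
  cont : Continuous h
  add : ∀ u v, h (u + v) ≤ h u + h v
  smul : ∀ (c : ℝ) u, 0 ≤ c → h (c • u) = c * h u

lemma SubL.comp {h : (Fin q → ℝ) → ℝ} (H : SubL h) (L : (Fin q → ℝ) →ₗ[ℝ] (Fin q → ℝ)) :
    SubL (fun u => h (L u)) :=
  ⟨H.cont.comp L.continuous_of_finiteDimensional, fun u v => by rw [map_add]; exact H.add _ _,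
    fun c u hc => by rw [map_smul]; exact H.smul _ _ hc⟩

def Dom {O O' : Type} (W : O → Fin q → ℝ) (V : O' → Fin q → ℝ) : Prop :=
  ∀ h, SubL h → Ex W h ≤ Ex V h

variable [NeZero q] {O O' O'' : Type} {W : O → Fin q → ℝ} {V : O' → Fin q → ℝ}
  {U : O'' → Fin q → ℝ}

lemma SubL.hom {h : (Fin q → ℝ) → ℝ} (H : SubL h) {w : Fin q → ℝ} (hw : ∀ i, 0 ≤ w i) :
    hom h w = h w := by
  obtain ⟨a, ha, e⟩ := exists_simp hw
  rw [e, hom_smul, ha.hom, H.smul _ _ (Zm_nonneg hw)]

lemma IsExp.hasSum_subl (hW : IsExp W) {h : (Fin q → ℝ) → ℝ} (H : SubL h) :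
    HasSum (fun o => h (W o)) (Ex W h) := by
  simpa only [H.hom (hW.nonneg _)] using hW.hasSum H.cont

lemma IsExp.ex_congr (hW : IsExp W) {F G : (Fin q → ℝ) → ℝ} (hF : Continuous F)
    (hG : Continuous G) (h : ∀ a, Simp a → F a = G a) : Ex W F = Ex W G :=
  le_antisymm (hW.ex_le hF hG fun a ha => (h a ha).le) (hW.ex_le hG hF fun a ha => (h a ha).ge)

lemma Dom.sh (hW : IsExp W) (hV : IsExp V) (D : Dom W V) {lam : ℝ} (ha : Adm q lam) :
    Dom (shE lam W) (shE lam V) := by
  intro h H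
  let L : (Fin q → ℝ) →ₗ[ℝ] (Fin q → ℝ) :=
    { toFun := fun u i => lam * u i + (1 - lam) * Zm u
      map_add' := fun u v => by ext i; simp [Zm, sum_add_distrib]; ring
      map_smul' := fun c u => by ext i; simp only [Zm_smul]; simp; ring }
  have e : ∀ a, Simp a → h (shr lam a) = h (L a) := fun a hs => by
    congr 1; ext i; simp [L, shr, hs.zm]
  have c1 : Continuous fun a : Fin q → ℝ => h (shr lam a) :=
    H.cont.comp (continuous_shr (q := q) lam)
  rw [hW.ex_sh ha, hV.ex_sh ha, hW.ex_congr c1 (H.comp L).cont e, hV.ex_congr c1 (H.comp L).cont e]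
  exact D _ (H.comp L)

lemma Dom.prod_right (hU : IsExp U) (hW : IsExp W) (hV : IsExp V) (D : Dom W V) :
    Dom (prodE U W) (prodE U V) := by
  intro h H
  have H' : ∀ o, SubL (fun u => h (U o * u)) := fun o => H.comp (LinearMap.mulLeft ℝ (U o))
  exact hasSum_le (fun o => D _ (H' o))
    (((hU.prod hW).hasSum_subl H).prod_fiberwise fun o => hW.hasSum_subl (H' o))
    (((hU.prod hV).hasSum_subl H).prod_fiberwise fun o => hV.hasSum_subl (H' o))

omit [NeZero q] in
lemma Ex_prod_comm (W : O → Fin q → ℝ) (V : O' → Fin q → ℝ) (F : (Fin q → ℝ) → ℝ) :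
    Ex (prodE W V) F = Ex (prodE V W) F := by
  rw [← Ex_equiv (prodE V W) (Equiv.prodComm O O')]
  congr 1
  ext o i
  simp [prodE, mul_comm]

lemma Dom.pow (hW : IsExp W) (hV : IsExp V) (D : Dom W V) : ∀ k, Dom (powE W k) (powE V k)
  | 0 => fun h _ => by rw [Ex_pow_zero, Ex_pow_zero]
  | k + 1 => fun h H => by
    rw [Ex_pow_succ, Ex_pow_succ]
    refine (Dom.prod_right hW (hW.pow k) (hV.pow k) (Dom.pow hW hV D k) h H).trans ?_
    rw [Ex_prod_comm, Ex_prod_comm V]
    exact Dom.prod_right (hV.pow k) hW hV D h H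

lemma IsExp.dom_zero (hW : IsExp W) (p : ℕ → ℝ) (lam : ℝ) : Dom W (lk q p lam 0) := by
  intro h H
  have h0 : h 0 = 0 := by simpa using H.smul 0 0 le_rfl
  let e : Fin q → Fin q → ℝ := fun o i => if o = i then 1 else 0
  have h1 : Ex (lk q p lam 0) h = ∑ i, 1 * h (e i) := by
    change ∑' o : Fin q, hom h (e o) = _
    rw [tsum_fintype]
    exact sum_congr rfl fun i _ => by
      rw [one_mul]; exact H.hom fun j => by simp only [e]; positivity
  rw [h1]
  refine hasSum_le (fun o => ?_) (hW.hasSum_subl H)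
    (hasSum_sum fun i _ => (hW.sum i).mul_right (h (e i)))
  have h2 : W o = ∑ i, W o i • e i := by ext j; simp [e, Finset.sum_apply]
  calc h (W o) = h (∑ i, W o i • e i) := by rw [← h2]
    _ ≤ ∑ i, h (W o i • e i) := le_sum_of_subadditive h h0.le H.add _ _
    _ = _ := sum_congr rfl fun i _ => H.smul _ _ (hW.nonneg o i)

lemma dom_lk {p : ℕ → ℝ} (hp : ∀ k, 0 ≤ p k) (hs : HasSum p 1) {lam : ℝ} (ha : Adm q lam) :
    ∀ n, Dom (lk q p lam (n + 1)) (lk q p lam n)
  | 0 => (isExp_lk hp hs ha 1).dom_zero p lam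
  | n + 1 => fun h H => by
    have h1 := isExp_lk hp hs ha (n + 1)
    have h2 := isExp_lk hp hs ha n
    have D := Dom.sh h1 h2 (dom_lk hp hs ha n) ha
    rw [lk_succ p lam (n + 1)]
    conv_rhs => rw [lk_succ]
    exact hasSum_le (fun k => mul_le_mul_of_nonneg_left
      (Dom.pow (h1.sh ha) (h2.sh ha) D k h H) (hp k))
      (IsExp.hasSum_mix hp hs (h1.sh ha).pow H.cont) (IsExp.hasSum_mix hp hs (h2.sh ha).pow H.cont)

lemma adv_antitone {p : ℕ → ℝ} (hp : ∀ k, 0 ≤ p k) (hs : HasSum p 1) {lam : ℝ}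
    (ha : Adm q lam) : Antitone (adv q p lam) := by
  have hq := qpos (q := q)
  have H : SubL (fun w : Fin q → ℝ => (∑ i, |w i - Zm w|) / (2 * q)) := by
    refine ⟨by unfold Zm; fun_prop, fun u v => ?_, fun c u hc => ?_⟩
    · rw [← add_div, ← sum_add_distrib]
      refine div_le_div_of_nonneg_right (sum_le_sum fun i _ => ?_) (by positivity)
      refine le_trans (le_of_eq ?_) (abs_add_le _ _)
      congr 1
      simp [Zm, sum_add_distrib]; ring
    · rw [← mul_div_assoc, mul_sum]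
      congr 1
      refine sum_congr rfl fun i _ => ?_
      rw [Zm_smul, Pi.smul_apply, smul_eq_mul, ← mul_sub, abs_mul, abs_of_nonneg hc]
  have e : ∀ n, adv q p lam n
      = Ex (lk q p lam n) (fun w : Fin q → ℝ => (∑ i, |w i - Zm w|) / (2 * q)) := fun n => by
    rw [adv_eq]
    exact (isExp_lk hp hs ha n).ex_congr continuous_tv H.cont fun a h => by simp [tv, h.zm]
  refine antitone_nat_of_succ_le fun n => ?_
  rw [e, e]
  exact dom_lk hp hs ha n _ H

/-! Second moment method -/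

lemma hasSum_of_eq {O : Type} {f g : O → ℝ} {s : ℝ} (h : HasSum f s) (e : ∀ o, g o = f o) :
    HasSum g s := by rwa [funext e]

structure Mom {O : Type} (P S : O → ℝ) (m v : ℝ) : Prop where
  nn : ∀ o, 0 ≤ P o
  h0 : HasSum P 1
  h1 : HasSum (fun o => P o * S o) m
  h2 : HasSum (fun o => P o * S o ^ 2) v

omit [NeZero q] in
lemma Mom.prod {P S : O → ℝ} {P' S' : O' → ℝ} {m v m' v' : ℝ} (A : Mom P S m v)
    (B : Mom P' S' m' v') : Mom (fun o : O × O' => P o.1 * P' o.2) (fun o => S o.1 + S' o.2)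
      (m + m') (v + 2 * (m * m') + v') := by
  refine ⟨fun o => mul_nonneg (A.nn _) (B.nn _), by simpa using hasSum_mul' A.h0 B.h0, ?_, ?_⟩
  · have := (hasSum_mul' A.h1 B.h0).add (hasSum_mul' A.h0 B.h1)
    rw [mul_one, one_mul] at this
    exact hasSum_of_eq this fun o => by ring
  · have := ((hasSum_mul' A.h2 B.h0).add ((hasSum_mul' A.h1 B.h1).mul_left 2)).add
      (hasSum_mul' A.h0 B.h2)
    rw [mul_one, one_mul] at this
    exact hasSum_of_eq this fun o => by ring

omit [NeZero q] in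
lemma Mom.equiv {P S : O → ℝ} {m v : ℝ} (A : Mom P S m v) (e : O' ≃ O) :
    Mom (fun o => P (e o)) (fun o => S (e o)) m v :=
  ⟨fun _ => A.nn _, (e.hasSum_iff).2 A.h0, (e.hasSum_iff (f := fun o => P o * S o)).2 A.h1,
    (e.hasSum_iff (f := fun o => P o * S o ^ 2)).2 A.h2⟩

omit [NeZero q] in
lemma Mom.pow {P S : O → ℝ} {m v : ℝ} (A : Mom P S m v) : ∀ k : ℕ,
    Mom (fun g : Fin k → O => ∏ c, P (g c)) (fun g => ∑ c, S (g c)) (k * m)
      (k * v + k * (k - 1) * m ^ 2)
  | 0 => ⟨fun _ => by simp, by simpa using hasSum_unique (fun _ : Fin 0 → O => (1 : ℝ)),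
      by simpa using hasSum_zero, by simpa using hasSum_zero⟩
  | k + 1 => by
    have := (A.prod (A.pow k)).equiv (Fin.consEquiv fun _ : Fin (k + 1) => O).symm
    convert this using 1
    · ext g; simp [Fin.prod_univ_succ, Fin.consEquiv, Fin.tail]
    · ext g; simp [Fin.sum_univ_succ, Fin.consEquiv, Fin.tail]
    · push_cast; ring
    · push_cast; ring

omit [NeZero q] in
lemma Mom.mix {P S : O → ℝ} {m v : ℝ} (A : Mom P S m v) {p : ℕ → ℝ} (hp : ∀ k, 0 ≤ p k)
    (hs : HasSum p 1) {d d2 : ℝ} (hd : HasSum (fun k : ℕ => p k * k) d)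
    (hd2 : HasSum (fun k : ℕ => p k * (k * (k - 1))) d2) :
    Mom (fun o : Σ k : ℕ, Fin k → O => p o.1 * ∏ c, P (o.2 c)) (fun o => ∑ c, S (o.2 c)) (d * m)
      (d * v + d2 * m ^ 2) := by
  have nn : ∀ o : Σ k : ℕ, Fin k → O, 0 ≤ p o.1 * ∏ c, P (o.2 c) := fun o =>
    mul_nonneg (hp _) ((A.pow _).nn _)
  have h0 : HasSum (fun o : Σ k : ℕ, Fin k → O => p o.1 * ∏ c, P (o.2 c)) 1 :=
    hasSum_sigma_nonneg nn (fun k => by simpa using (A.pow k).h0.mul_left (p k)) hs
  have h2 : HasSum (fun o : Σ k : ℕ, Fin k → O => (p o.1 * ∏ c, P (o.2 c)) * (∑ c, S (o.2 c)) ^ 2)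
      (d * v + d2 * m ^ 2) :=
    hasSum_sigma_nonneg (fun o => mul_nonneg (nn o) (sq_nonneg _))
      (fun k => hasSum_of_eq ((A.pow k).h2.mul_left (p k)) fun g => mul_assoc _ _ _)
      (hasSum_of_eq ((hd.mul_right v).add (hd2.mul_right (m ^ 2))) fun k => by ring)
  refine ⟨nn, h0, ?_, h2⟩
  have hs1 : Summable fun o : Σ k : ℕ, Fin k → O => (p o.1 * ∏ c, P (o.2 c)) * ∑ c, S (o.2 c) := by
    refine Summable.of_norm_bounded (h0.add h2).summable fun o => ?_
    rw [Real.norm_eq_abs, abs_mul, abs_of_nonneg (nn o), ← mul_one_add]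
    refine mul_le_mul_of_nonneg_left ?_ (nn o)
    rw [← sq_abs]
    nlinarith [sq_nonneg (|∑ c, S (o.2 c)| - 1), abs_nonneg (∑ c, S (o.2 c))]
  have h3 := hs1.hasSum.sigma
    (fun k => hasSum_of_eq ((A.pow k).h1.mul_left (p k)) fun g => mul_assoc _ _ _)
  rw [← h3.unique (hasSum_of_eq (hd.mul_right m) fun k => by ring)]
  exact hs1.hasSum

lemma sum_potts (lam : ℝ) (i : Fin q) (f : Fin q → ℝ) :
    ∑ j, potts q lam i j * f j = lam * f i + (1 - lam) * Zm f :=
  shE_eq lam (fun _ : Unit => f) () i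

lemma Mom.sh {P : Fin q → O → ℝ} {S : O → ℝ} {m v : Fin q → ℝ}
    (A : ∀ j, Mom (P j) S (m j) (v j)) {lam : ℝ} (ha : Adm q lam) (i : Fin q) :
    Mom (fun o => ∑ j, potts q lam i j * P j o) S (∑ j, potts q lam i j * m j)
      (∑ j, potts q lam i j * v j) := by
  refine ⟨fun o => sum_nonneg fun j _ => mul_nonneg (ha.potts_nonneg _ _) ((A j).nn _), ?_, ?_, ?_⟩
  · have := hasSum_sum (s := univ) fun j _ => (A j).h0.mul_left (potts q lam i j)
    rwa [sum_potts, simp_one.zm, mul_one, mul_one, add_sub_cancel] at this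
  · refine hasSum_of_eq (hasSum_sum (s := univ) fun j _ => (A j).h1.mul_left (potts q lam i j))
      fun o => ?_
    rw [sum_mul]; exact sum_congr rfl fun j _ => mul_assoc _ _ _
  · refine hasSum_of_eq (hasSum_sum (s := univ) fun j _ => (A j).h2.mul_left (potts q lam i j))
      fun o => ?_
    rw [sum_mul]; exact sum_congr rfl fun j _ => mul_assoc _ _ _

/-- sum of a test function over the spins of the last level -/
noncomputable def stat (f : Fin q → ℝ) : (n : ℕ) → Obs q n → ℝ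
  | 0, o => f o
  | n + 1, o => ∑ c : Fin o.1, stat f n (o.2 c)

lemma mom_law {p : ℕ → ℝ} (hp : ∀ k, 0 ≤ p k) (hs : HasSum p 1) {d d2 : ℝ}
    (hd : HasSum (fun k : ℕ => p k * k) d) (hd2 : HasSum (fun k : ℕ => p k * (k * (k - 1))) d2)
    {lam : ℝ} (ha : Adm q lam) {f : Fin q → ℝ} (hf : Zm f = 0) (hf1 : ∀ i, f i ^ 2 ≤ 1) {K : ℝ}
    (hK : 1 ≤ K) (hK2 : d * K + d2 * lam ^ 2 ≤ K * (d * lam) ^ 2) : ∀ n, ∃ v : Fin q → ℝ, ∀ i,
      Mom (law q p lam n i) (stat f n) ((d * lam) ^ n * f i) (v i) ∧ v i ≤ K * ((d * lam) ^ n) ^ 2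
  | 0 => by
    refine ⟨fun i => f i ^ 2, fun i => ⟨?_, by simpa using (hf1 i).trans hK⟩⟩
    change Mom (fun o : Fin q => if o = i then (1 : ℝ) else 0) f _ _
    refine ⟨fun o => by positivity, hasSum_ite_eq i 1, ?_, ?_⟩
    · exact hasSum_of_eq (hasSum_ite_eq i _) fun o => by split_ifs with h <;> simp [h]
    · exact hasSum_of_eq (hasSum_ite_eq i _) fun o => by split_ifs with h <;> simp [h]
  | n + 1 => by
    obtain ⟨v, hv⟩ := mom_law hp hs hd hd2 ha hf hf1 hK hK2 n
    have hd0 : 0 ≤ d := hd.nonneg fun k => mul_nonneg (hp k) (Nat.cast_nonneg k)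
    have hd20 : 0 ≤ d2 := hd2.nonneg fun k => mul_nonneg (hp k) (by
      cases k with
      | zero => simp
      | succ k => push_cast; simp only [add_sub_cancel_right]; positivity)
    have hm : ∀ i, ∑ j, potts q lam i j * ((d * lam) ^ n * f j) = lam * ((d * lam) ^ n * f i) := by
      intro i
      have : Zm (fun j => (d * lam) ^ n * f j) = 0 := by
        have := Zm_smul ((d * lam) ^ n) f
        rwa [hf, mul_zero] at this
      rw [sum_potts, this]; ring
    refine ⟨fun i => d * ∑ j, potts q lam i j * v j + d2 * (lam * ((d * lam) ^ n * f i)) ^ 2,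
      fun i => ⟨?_, ?_⟩⟩
    · have := (Mom.sh (fun j => (hv j).1) ha i).mix hp hs hd hd2
      rw [hm, show d * (lam * ((d * lam) ^ n * f i)) = (d * lam) ^ (n + 1) * f i by ring] at this
      exact this
    · have h1 : ∑ j, potts q lam i j * v j ≤ K * ((d * lam) ^ n) ^ 2 := by
        calc _ ≤ ∑ j, potts q lam i j * (K * ((d * lam) ^ n) ^ 2 * 1) := sum_le_sum fun j _ =>
              mul_le_mul_of_nonneg_left (by simpa using (hv j).2) (ha.potts_nonneg _ _)
          _ = _ := by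
            simp only [mul_left_comm (potts _ _ _ _), ← mul_sum]
            rw [sum_potts, simp_one.zm]; ring
      have h2 := mul_le_mul_of_nonneg_left h1 hd0
      have h3 := mul_le_mul_of_nonneg_right hK2 (sq_nonneg ((d * lam) ^ n))
      have h4 := mul_le_mul_of_nonneg_left (hf1 i)
        (mul_nonneg hd20 (sq_nonneg (lam * (d * lam) ^ n)))
      rw [pow_succ (d * lam) n]
      nlinarith

theorem recon_of_ks (hq2 : 2 ≤ q) {p : ℕ → ℝ} (hp : ∀ k, 0 ≤ p k) (hs : HasSum p 1) {d d2 : ℝ}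
    (hd : HasSum (fun k : ℕ => p k * k) d) (hd2 : HasSum (fun k : ℕ => p k * (k * (k - 1))) d2)
    {lam : ℝ} (ha : Adm q lam) (hc : 1 < d * lam ^ 2) : Recon q p lam := by
  have hq := qpos (q := q)
  have hq' : (2 : ℝ) ≤ q := by exact_mod_cast hq2
  have hd0 : 0 < d := by by_contra h; nlinarith [sq_nonneg lam]
  have hd20 : 0 ≤ d2 := hd2.nonneg fun k => mul_nonneg (hp k) (by
    cases k with
    | zero => simp
    | succ k => push_cast; simp only [add_sub_cancel_right]; positivity)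
  have hθ : 0 < (d * lam) ^ 2 - d := by nlinarith
  set K := 1 + d2 * lam ^ 2 / ((d * lam) ^ 2 - d) with hKd
  have hK : 1 ≤ K := le_add_of_nonneg_right (by positivity)
  have hK2 : d * K + d2 * lam ^ 2 ≤ K * (d * lam) ^ 2 := by
    have : K * ((d * lam) ^ 2 - d) = (d * lam) ^ 2 - d + d2 * lam ^ 2 := by
      rw [hKd, add_mul, one_mul, div_mul_cancel₀ _ hθ.ne']
    nlinarith
  let i0 : Fin q := 0
  let f : Fin q → ℝ := fun i => (if i = i0 then 1 else 0) - 1 / q
  have hf : Zm f = 0 := by simp [Zm, f, hq.ne']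
  have hq1 : 1 / (q : ℝ) ≤ 1 / 2 := one_div_le_one_div_of_le (by norm_num) hq'
  have hq0 : 0 < 1 / (q : ℝ) := by positivity
  have hf1 : ∀ i, f i ^ 2 ≤ 1 := fun i => by simp only [f]; split_ifs <;> nlinarith
  have hf0 : 1 / 2 ≤ f i0 := by simp only [f, if_true]; linarith
  have low : ∀ n, 1 / (16 * K * q) ≤ adv q p lam n := by
    intro n
    obtain ⟨v, hv⟩ := mom_law hp hs hd hd2 ha hf hf1 hK hK2 n
    have hE := isExp_lk hp hs ha n
    set m := (d * lam) ^ n
    have hm : m ≠ 0 := pow_ne_zero _ fun h => by rw [h] at hθ; linarith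
    have c1 : Continuous fun a : Fin q → ℝ => |a i0 - 1| := by fun_prop
    have hT := hE.hasSum c1
    set T := Ex (lk q p lam n) fun a => |a i0 - 1|
    have hT2 : 1 / (2 * q) * T + 0 ≤ adv q p lam n := by
      rw [adv_eq, ← hE.ex_affine c1]
      refine hE.ex_le (by fun_prop) continuous_tv fun a _ => ?_
      rw [add_zero, tv, one_div, inv_mul_eq_div]
      exact div_le_div_of_nonneg_right (single_le_sum (f := fun i => |a i - 1|)
        (fun i _ => abs_nonneg _) (mem_univ i0)) (by positivity)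
    have a1 := (hasSum_sum (s := univ) fun j _ => (hv j).1.h1).div_const (q : ℝ)
    have a2 := (hasSum_sum (s := univ) fun j _ => (hv j).1.h2).div_const (q : ℝ)
    have e1 : (∑ j, m * f j) / q = 0 := by
      have := Zm_smul m f
      rwa [hf, mul_zero] at this
    have e2 : (∑ j, v j) / q ≤ K * m ^ 2 := by
      rw [div_le_iff₀ hq]
      calc _ ≤ ∑ _j : Fin q, K * m ^ 2 := sum_le_sum fun j _ => (hv j).2
        _ = _ := by simp [mul_comm]
    rw [e1] at a1
    have key := hasSum_le (fun o => ?_) (((hv i0).1.h1.sub a1).mul_left (8 * K * m))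
      (((hv i0).1.h2.add a2).add (hT.mul_left (16 * K ^ 2 * m ^ 2)))
    · have h1 := (hv i0).2
      have hm2 : 0 < K * m ^ 2 := by positivity
      have h2 : K * m ^ 2 * 2 ≤ K * m ^ 2 * (16 * K * T) := by nlinarith
      have h3 := le_of_mul_le_mul_left h2 hm2
      refine le_trans ?_ hT2
      rw [add_zero, div_le_iff₀ (by positivity)]
      have : 1 / (2 * (q : ℝ)) * T * (16 * K * q) = 8 * K * T := by field_simp; ring
      rw [this]; linarith
    · obtain ⟨a, hs, e⟩ := exists_simp (hE.nonneg o)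
      have hZ := Zm_nonneg (hE.nonneg o)
      generalize Zm (lk q p lam n o) = Z at *
      have e' : ∀ j, law q p lam n j o = Z * a j := fun j => congrFun e j
      simp only [e, e', hom_smul, hs.hom, ← sum_mul, ← mul_sum, hs.2]
      have h1 := hs.1 i0
      have h2 : |a i0 - 1| ≤ a i0 + 1 := abs_le.2 ⟨by linarith, by linarith⟩
      set S := stat f n o
      have h3 : 8 * K * m * (S * (a i0 - 1))
          ≤ (a i0 + 1) * S ^ 2 + 16 * K ^ 2 * m ^ 2 * |a i0 - 1| := by
        have h4 := mul_le_mul_of_nonneg_right h2 (sq_nonneg S)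
        rcases abs_cases (a i0 - 1) with h | h
        · rw [h.1] at h4 ⊢
          linarith [mul_nonneg h.2 (sq_nonneg (S - 4 * K * m))]
        · rw [h.1] at h4 ⊢
          linarith [mul_nonneg (neg_nonneg.2 h.2.le) (sq_nonneg (S + 4 * K * m))]
      have h5 := mul_le_mul_of_nonneg_left h3 hZ
      have h6 : ∀ x : ℝ, Z * q * x / q = Z * x := fun x => by field_simp
      rw [h6, h6]
      nlinarith
  have hb : BddBelow (Set.range (adv q p lam)) := ⟨_, by rintro _ ⟨n, rfl⟩; exact low n⟩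
  have hl := tendsto_atTop_ciInf (adv_antitone hp hs ha) hb
  exact ⟨_, lt_of_lt_of_le (by positivity) (ge_of_tendsto' hl low), hl⟩

lemma Recon.not_nonrecon {p : ℕ → ℝ} {lam : ℝ} (h : Recon q p lam) : ¬ NonRecon q p lam := by
  obtain ⟨L, h0, hL⟩ := h
  exact fun h' => h0.ne' (tendsto_nhds_unique hL h')

/-! The two offspring laws -/

lemma dary_hasSum (d : ℕ) (g : ℕ → ℝ) : HasSum (fun k => dary d k * g k) (g d) :=
  hasSum_of_eq (hasSum_ite_eq d _) fun k => by unfold dary; split_ifs with h <;> simp [h]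

lemma dary_nonneg (d k : ℕ) : 0 ≤ dary d k := by unfold dary; positivity

lemma poisson_hasSum (d : ℝ) : HasSum (poisson d) 1 := by
  have := (NormedSpace.expSeries_div_hasSum_exp d).mul_left (Real.exp (-d))
  rw [← Real.exp_eq_exp_ℝ, ← Real.exp_add, neg_add_cancel, Real.exp_zero] at this
  exact hasSum_of_eq this fun k => by unfold poisson; ring

lemma poisson_succ (d : ℝ) (k : ℕ) : poisson d (k + 1) * (k + 1) = d * poisson d k := by
  unfold poisson
  rw [Nat.factorial_succ]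
  push_cast
  field_simp
  ring

lemma poisson_mean (d : ℝ) : HasSum (fun k : ℕ => poisson d k * k) d := by
  rw [← hasSum_nat_add_iff' 1]
  have := (poisson_hasSum d).mul_left d
  simp only [range_one, sum_singleton, Nat.cast_zero, mul_zero, sub_zero]
  rw [mul_one] at this
  exact hasSum_of_eq this fun k => by push_cast; exact poisson_succ d k

lemma poisson_second (d : ℝ) : HasSum (fun k : ℕ => poisson d k * (k * (k - 1))) (d * d) := by
  rw [← hasSum_nat_add_iff' 1]
  simp only [range_one, sum_singleton, Nat.cast_zero, zero_mul, mul_zero, sub_zero]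
  refine hasSum_of_eq ((poisson_mean d).mul_left d) fun k => ?_
  push_cast
  rw [← mul_assoc, poisson_succ]; ring

end Vale.Agent.P154
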