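import Vale.Agent.P154.Sym

namespace Vale.Agent.P154

open Equiv Finset

variable {q : ℕ}

def madd : List (List ℤ) → List (List ℤ) → List (List ℤ)
  | [], N => N
  | r :: M, [] => r :: M
  | r :: M, s :: N => vaddZ r s :: madd M N

lemma bil_madd (y : List ℝ) : ∀ (M N : List (List ℤ)) (x : List ℝ),
    bil (madd M N) x y = bil M x y + bil N x y
  | [], N, x => by simp [madd, bil]
  | _ :: _, [], x => by simp [madd, bil]
  | _ :: _, _ :: _, [] => by simp [bil]
  | r :: M, s :: N, c :: x => by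
    have := bil_madd y M N x
    simp only [madd, bil, List.map_cons, dR_cons, dR_vaddZ] at this ⊢
    rw [this]; ring

def outer (u v : List ℤ) : List (List ℤ) := u.map (smulZ · v)

lemma bil_outer (v : List ℤ) (y : List ℝ) : ∀ (u : List ℤ) (x : List ℝ),
    bil (outer u v) x y = dR (cZ u) x * dR (cZ v) y
  | [], x => by simp [outer, bil]
  | _ :: _, [] => by simp [bil]
  | c :: u, z :: x => by
    have := bil_outer v y u x
    simp only [outer, bil, List.map_cons, dR_cons, dR_smulZ, cZ_cons] at this ⊢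
    rw [this]; ring

def lsum : List (List ℤ) → List (List ℤ) → List (List ℤ)
  | e :: E, r :: N => madd (outer e r) (lsum E N)
  | _, _ => []

lemma bil_lsum (x y : List ℝ) : ∀ E N : List (List ℤ),
    bil (lsum E N) x y = dR (E.map fun e => dR (cZ e) x) (N.map fun r => dR (cZ r) y)
  | [], N => by simp [lsum, bil]
  | _ :: _, [] => by simp [lsum, bil]
  | e :: E, r :: N => by simp [lsum, bil_madd, bil_outer, bil_lsum x y E N]

def lift (E M : List (List ℤ)) : List (List ℤ) := lsum E (M.map (vecMat · E))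

lemma bil_lift (hL : Link q) (m : ℕ) (M : List (List ℤ)) (a b : Fin q → ℝ) :
    bil (lift (emat q 1 m) M) (phi (1 + m) a) (phi (1 + m) b)
      = ps 1 a * ps 1 b * bil M (phi m a) (phi m b) := by
  rw [lift, bil_lsum, emat_spec hL, dR_map_mul, List.map_map]
  have : ((fun r => dR (cZ r) (phi (1 + m) b)) ∘ fun r => vecMat r (emat q 1 m))
      = (ps 1 b * ·) ∘ fun r => dR (cZ r) (phi m b) := by
    ext r; simp [dR_emat hL]
  rw [this, ← List.map_map, dR_comm, dR_map_mul, dR_comm, bil]; ring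

def diagZ : List ℤ → List (List ℤ)
  | [] => []
  | c :: u => [c] :: (diagZ u).map (0 :: ·)

lemma bil_diag : ∀ (u : List ℤ) (x y : List ℝ),
    bil (diagZ u) x y = dR (cZ u) (List.zipWith (· * ·) x y)
  | [], x, y => by simp [diagZ, bil]
  | _ :: _, [], y => by simp [bil]
  | _ :: u, _ :: x, [] => by
    have : ∀ (x : List ℝ) (n : ℕ), dR x (List.replicate n 0) = 0 := by
      intro x
      induction x with
      | nil => simp
      | cons z x ih => intro n; cases n <;> simp [List.replicate_succ, ih]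
    simp [bil, diagZ, Function.comp_def, this]
  | c :: u, z :: x, w :: y => by
    have := bil_diag u x y
    simp only [diagZ, bil, List.map_cons, dR_cons, cZ_cons, cZ_nil, dR_nil_left, List.map_map,
      Function.comp_def, List.zipWith_cons_cons, Int.cast_zero, zero_mul, zero_add] at this ⊢
    rw [this]; ring

lemma sum_phi (hL : Link q) (m : ℕ) (a b : Fin q → ℝ) (f : List ℝ) :
    ∑ σ : Perm (Fin q), dR f (phi m (a * b ∘ σ))
      = dR f (List.zipWith (· * ·) (phi m a) (phi m b)) := by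
  have : ∀ (L : List (List ℕ)) (f : List ℝ), (∀ l ∈ L, l.length = q) →
      ∑ σ : Perm (Fin q), dR f (L.map (ML · (List.ofFn (a * b ∘ σ))))
      = dR f (List.zipWith (· * ·) (L.map (ML · (List.ofFn a))) (L.map (ML · (List.ofFn b)))) := by
    intro L
    induction L with
    | nil => simp
    | cons l L ih =>
      intro f h
      cases f with
      | nil => simp
      | cons c f =>
        simp only [List.map_cons, dR_cons, List.zipWith_cons_cons, sum_add_distrib, ← mul_sum]
        rw [ih f fun l hl => h l (List.mem_cons_of_mem _ hl), ML_mul hL (h l (by simp))]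
  exact this _ f fun l hl => (of_mem_parts _ _ _ l hl).1

noncomputable def evL : List ℤ → ℝ → ℝ
  | [], _ => 0
  | c :: l, t => c + t * evL l t

def pieceM (q : ℕ) : List ℤ → ℕ → List ℤ → List (List ℤ) → List (List ℤ)
  | [], _, _, M => M
  | c :: cs, m, u, M => pieceM q cs (1 + m) (vecMat u (emat q 1 m))
      (madd (lift (emat q 1 m) M) (diagZ (smulZ c (vecMat u (emat q 1 m)))))

lemma pieceM_spec [NeZero q] (hL : Link q) {a b : Fin q → ℝ} (ha : Simp a) (hb : Simp b) :
    ∀ (cs : List ℤ) (m : ℕ) (u : List ℤ) (M : List (List ℤ)) (g G : (Fin q → ℝ) → ℝ),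
    (∀ w, dR (cZ u) (phi m w) = g w) →
    bil M (phi m a) (phi m b) = ∑ σ : Perm (Fin q), G (a * b ∘ σ) →
    bil (pieceM q cs m u M) (phi (m + cs.length) a) (phi (m + cs.length) b)
      = ∑ σ : Perm (Fin q), ((q : ℝ) ^ 2) ^ cs.length * (G (a * b ∘ σ) + g (a * b ∘ σ) *
        (ps 1 (a * b ∘ σ) / q ^ 2) * evL cs (ps 1 (a * b ∘ σ) / q ^ 2))
  | [], m, u, M, g, G, _, hG => by simpa [pieceM, evL] using hG
  | c :: cs, m, u, M, g, G, hg, hG => by
    have hq := qpos (q := q)
    have h1 : ∀ w, dR (cZ (vecMat u (emat q 1 m))) (phi (1 + m) w) = ps 1 w * g w := fun w => by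
      rw [dR_emat hL, hg]
    rw [pieceM, List.length_cons, show m + (cs.length + 1) = 1 + m + cs.length by ring,
      pieceM_spec hL ha hb cs _ _ _ _ (fun w => q ^ 2 * G w + c * (ps 1 w * g w)) h1]
    · refine sum_congr rfl fun σ _ => ?_
      simp only [evL]
      field_simp
      ring
    · rw [bil_madd, bil_lift hL, hG, bil_diag, ← sum_phi hL, ha.ps_one, hb.ps_one, mul_sum,
        ← sum_add_distrib]
      refine sum_congr rfl fun σ _ => ?_
      rw [dR_smulZ, h1]; ring

lemma evL_vadd (t : ℝ) : ∀ u v : List ℤ, evL (vaddZ u v) t = evL u t + evL v t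
  | [], v => by simp [vaddZ, evL]
  | _ :: _, [] => by simp [vaddZ, evL]
  | x :: u, y :: v => by simp [vaddZ, evL, evL_vadd t u v]; ring

lemma evL_map (c : ℤ) (t : ℝ) : ∀ v : List ℤ, evL (v.map (Int.mul c)) t = c * evL v t
  | [] => by simp [evL]
  | y :: v => by simp [evL, evL_map c t v]; ring

def pmul : List ℤ → List ℤ → List ℤ
  | [], _ => []
  | c :: u, v => vaddZ (v.map (Int.mul c)) (0 :: pmul u v)

lemma evL_pmul (t : ℝ) (v : List ℤ) : ∀ u : List ℤ, evL (pmul u v) t = evL u t * evL v t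
  | [] => by simp [pmul, evL]
  | c :: u => by simp [pmul, evL, evL_vadd, evL_map, evL_pmul t v u]; ring

lemma evL_take_drop (t : ℝ) : ∀ (k : ℕ) (l : List ℤ),
    evL l t = evL (l.take k) t + t ^ k * evL (l.drop k) t
  | 0, l => by simp [evL]
  | k + 1, [] => by simp [evL]
  | k + 1, c :: l => by
    simp only [List.take_succ_cons, List.drop_succ_cons, evL]
    rw [evL_take_drop t k l]; ring

lemma evL_zero (t : ℝ) : ∀ l : List ℤ, l.all (· == 0) = true → evL l t = 0
  | [], _ => rfl
  | c :: l, h => by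
    simp only [List.all_cons, Bool.and_eq_true, beq_iff_eq] at h
    simp [evL, h.1, evL_zero t l h.2]

lemma evL_nonneg {t : ℝ} (ht : 0 ≤ t) : ∀ l : List ℤ, l.all (0 ≤ ·) = true → 0 ≤ evL l t
  | [], _ => le_rfl
  | c :: l, h => by
    simp only [List.all_cons, Bool.and_eq_true, decide_eq_true_eq] at h
    exact add_nonneg (by exact_mod_cast h.1) (mul_nonneg ht (evL_nonneg ht l h.2))

structure Piece where
  k : ℕ
  p : PS
  S : List ℤ
  r : List ℤ
  rad : Bool
  om : ℤ

def Piece.T (P : Piece) : List ℤ := pmul (pmul P.S P.S) (if P.rad then pmul P.r [1, -1] else P.r)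

def Piece.cs (P : Piece) : List ℤ := (P.T.drop (P.k + 1)).map (Int.mul (-1))

def Piece.ok (d n : ℕ) (P : Piece) : Bool :=
  chkPS d n (P.k + 2) P.p && P.r.all (0 ≤ ·) && (P.T.tail.take P.k).all (· == 0) &&
    (P.k + 2 + P.cs.tail.length == n) &&
    (P.om == ((d + 1) ^ 2) ^ P.cs.tail.length * (d + 1).factorial * (d + 1) ^ (P.k + 1)
      * P.T.headD 0)

def Piece.mat (q : ℕ) (P : Piece) : List (List ℤ) :=
  pieceM q P.cs.tail (P.k + 2) (comb q P.p) (diagZ (smulZ (P.cs.headD 0) (comb q P.p)))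

lemma Piece.minorant (P : Piece) (h1 : P.r.all (0 ≤ ·) = true)
    (h2 : (P.T.tail.take P.k).all (· == 0) = true) {t : ℝ} (h0 : 0 ≤ t) (ht : t ≤ 1) :
    t ^ (P.k + 1) * (P.cs.headD 0 + t * evL P.cs.tail t) ≤ P.T.headD 0 := by
  have h3 : 0 ≤ evL P.T t := by
    have := evL_nonneg h0 _ h1
    rw [Piece.T, evL_pmul, evL_pmul]
    refine mul_nonneg (mul_self_nonneg _) ?_
    split_ifs
    · rw [evL_pmul]
      exact mul_nonneg this (by simp [evL]; linarith)
    · exact this
  have h4 : ∀ l : List ℤ, (l.headD 0 : ℤ) + t * evL l.tail t = evL l t := by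
    intro l; cases l <;> simp [evL]
  rw [h4, Piece.cs, evL_map]
  rw [← h4, evL_take_drop t P.k, evL_zero t _ h2, List.drop_tail] at h3
  push_cast
  rw [pow_succ]
  linarith

lemma Zm_mul_le [NeZero q] {a b : Fin q → ℝ} (ha : Simp a) (hb : Simp b) (σ : Perm (Fin q)) :
    Zm (a * b ∘ σ) ≤ q := by
  have hq := qpos (q := q)
  rw [Zm, div_le_iff₀ hq]
  calc _ ≤ ∑ i, a i * q := sum_le_sum fun i _ => mul_le_mul_of_nonneg_left
        (by rw [← hb.2]; exact single_le_sum (fun j _ => hb.1 j) (mem_univ (σ i))) (ha.1 i)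
    _ = _ := by rw [← sum_mul, ha.2]

lemma Piece.le {d n : ℕ} (hL : Link (d + 1)) (P : Piece) (h : P.ok d n = true)
    {a b : Fin (d + 1) → ℝ} (ha : Simp a) (hb : Simp b) :
    bil (P.mat (d + 1)) (phi n a) (phi n b)
      ≤ ∑ σ : Perm (Fin (d + 1)), hom (fun x => P.om * evPS P.p x) (a * b ∘ σ) := by
  simp only [Piece.ok, Bool.and_eq_true, beq_iff_eq] at h
  obtain ⟨⟨⟨⟨h1, h2⟩, h3⟩, h4⟩, h5⟩ := h
  have hh : homog (P.k + 2) P.p = true := by
    simp only [chkPS, hok, Bool.and_eq_true] at h1; exact h1.1.1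
  have hq := qpos (q := d + 1)
  rw [← h4, Piece.mat, pieceM_spec hL ha hb _ _ _ _ _
    (fun w => P.cs.headD 0 * ((d + 1).factorial * evPS P.p w)) (fun w => dR_comb hL w _ _ hh)]
  · refine sum_le_sum fun σ _ => ?_
    have hw : ∀ i, 0 ≤ (a * b ∘ σ) i := fun i => mul_nonneg (ha.1 i) (hb.1 _)
    have hZ := Zm_mul_le ha hb σ
    have hZ0 := Zm_nonneg hw
    obtain ⟨x, hx, e⟩ := exists_simp hw
    generalize Zm (a * b ∘ σ) = Z at *
    have h6 := P.minorant h2 h3 (div_nonneg hZ0 hq.le) ((div_le_one hq).2 hZ)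
    have h7 := chkPS_sound hL h1 hx
    have h8 : ps 1 (Z • x) / ((d + 1 : ℕ) : ℝ) ^ 2 = Z / ((d + 1 : ℕ) : ℝ) := by
      rw [ps_smul, hx.ps_one]; field_simp
    rw [e, hom_smul, hx.hom, h8, evPS_smul _ _ _ _ hh, h5]
    have h9 := mul_le_mul_of_nonneg_left h6 (show 0 ≤ Z * ((((d + 1 : ℕ) : ℝ) ^ 2) ^
      P.cs.tail.length * (d + 1).factorial * ((d + 1 : ℕ) : ℝ) ^ (P.k + 1) * evPS P.p x) by
        positivity)
    convert h9 using 1
    · rw [div_pow]; field_simp; ring
    · push_cast; ring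
  · rw [bil_diag, ← sum_phi hL]
    refine sum_congr rfl fun σ _ => ?_
    rw [dR_smulZ, dR_comb hL _ _ _ hh]

structure Out where
  c : ℤ
  m : ℕ
  p : PS
  m' : ℕ
  p' : PS

def outM (q n : ℕ) : List Out → List (List ℤ)
  | [] => []
  | o :: L => madd (outer (smulZ o.c (hv q n o.m o.p)) (hv q n o.m' o.p')) (outM q n L)

def pcM (q : ℕ) : List Piece → List (List ℤ)
  | [] => []
  | P :: L => madd (P.mat q) (pcM q L)

def chkPair (d n k : ℕ) (Ps : List Piece) (Os : List Out) : Bool :=
  Ps.all (Piece.ok d n) && Os.all (fun o => hok n o.m o.p && hok n o.m' o.p') &&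
    chkBil k (madd (pcM (d + 1) Ps) (outM (d + 1) n Os)) (gens d (bas (d + 1) n))
      (gens d (bas (d + 1) n))

theorem chkPair_sound {d n k : ℕ} (hL : Link (d + 1)) {Ps : List Piece} {Os : List Out}
    (h : chkPair d n k Ps Os = true) {a b : Fin (d + 1) → ℝ} (ha : Simp a) (hb : Simp b) :
    0 ≤ avg (fun x => (Ps.map fun P => P.om * evPS P.p x).sum) a b +
      (Os.map fun o => (o.c : ℝ) * ((d + 1 : ℕ) : ℝ) ^ (n - o.m + (n - o.m')) * (d + 1).factorial
        * (evPS o.p a * evPS o.p' b)).sum := by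
  simp only [chkPair, Bool.and_eq_true] at h
  obtain ⟨⟨h1, h2⟩, h3⟩ := h
  have h4 := chkBil_sound h3 (phi_cone hL n ha.1) (phi_cone hL n hb.1)
  have hf : (0 : ℝ) < (d + 1).factorial := by exact_mod_cast Nat.factorial_pos _
  have h5 : ∀ L : List Piece, L.all (Piece.ok d n) = true →
      bil (pcM (d + 1) L) (phi n a) (phi n b) ≤ ∑ σ : Perm (Fin (d + 1)),
        hom (fun x => (L.map fun P => P.om * evPS P.p x).sum) (a * b ∘ σ) := by
    intro L
    induction L with
    | nil => simp [pcM, bil, hom]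
    | cons P L ih =>
      intro h
      simp only [List.all_cons, Bool.and_eq_true] at h
      have := add_le_add (P.le hL h.1 ha hb) (ih h.2)
      rw [← sum_add_distrib] at this
      simpa only [pcM, bil_madd, hom, List.map_cons, List.sum_cons, mul_add] using this
  have h6 : ∀ L : List Out, L.all (fun o => hok n o.m o.p && hok n o.m' o.p') = true →
      bil (outM (d + 1) n L) (phi n a) (phi n b) = (d + 1).factorial * (L.map fun o =>
        (o.c : ℝ) * ((d + 1 : ℕ) : ℝ) ^ (n - o.m + (n - o.m')) * (d + 1).factorial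
        * (evPS o.p a * evPS o.p' b)).sum := by
    intro L
    induction L with
    | nil => simp [outM, bil]
    | cons o L ih =>
      intro h
      simp only [List.all_cons, Bool.and_eq_true] at h
      rw [outM, bil_madd, ih h.2, bil_outer, dR_smulZ, dR_hv hL h.1.1 ha, dR_hv hL h.1.2 hb,
        List.map_cons, List.sum_cons]
      ring
  rw [bil_madd, h6 _ h2] at h4
  have h7 := h5 _ h1
  rw [avg, div_add' _ _ _ hf.ne']
  exact div_nonneg (by linarith) hf.le

lemma avg_congr [NeZero q] {F G : (Fin q → ℝ) → ℝ} (h : ∀ x, Simp x → F x = G x)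
    {a b : Fin q → ℝ} (ha : Simp a) (hb : Simp b) : avg F a b = avg G a b := by
  unfold avg
  congr 1
  refine sum_congr rfl fun σ _ => ?_
  have hw : ∀ i, 0 ≤ (a * b ∘ σ) i := fun i => mul_nonneg (ha.1 i) (hb.1 _)
  exact le_antisymm (hom_le (fun x hx => (h x hx).le) hw) (hom_le (fun x hx => (h x hx).ge) hw)

lemma avg_affine [NeZero q] (F : (Fin q → ℝ) → ℝ) (c e : ℝ) {a b : Fin q → ℝ} (ha : Simp a)
    (hb : Simp b) : avg (fun x => c * F x + e) a b = c * avg F a b + e := by
  have hq := qpos (q := q)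
  have hf : (0 : ℝ) < q.factorial := by exact_mod_cast Nat.factorial_pos _
  have h1 : ∀ i, ∑ σ : Perm (Fin q), b (σ i) = q.factorial := by
    intro i
    have h2 : ∀ j, ∑ σ : Perm (Fin q), b (σ j) = ∑ σ : Perm (Fin q), b (σ i) := fun j => by
      rw [← Equiv.sum_comp (Equiv.mulRight (swap i j))]
      simp
    have h3 : ∑ j, ∑ σ : Perm (Fin q), b (σ j) = q * q.factorial := by
      rw [sum_comm]
      simp [Equiv.sum_comp _ b, hb.2, Fintype.card_perm, mul_comm]
    simp only [h2, sum_const, card_univ, Fintype.card_fin, nsmul_eq_mul] at h3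
    exact mul_left_cancel₀ hq.ne' h3
  have h4 : ∑ σ : Perm (Fin q), Zm (a * b ∘ σ) = q.factorial := by
    simp only [Zm, ← sum_div, Pi.mul_apply, Function.comp]
    rw [sum_comm]
    simp only [← mul_sum, h1, ← sum_mul, ha.2]
    field_simp
  have h5 : ∀ w : Fin q → ℝ, hom (fun x => c * F x + e) w = c * hom F w + e * Zm w := fun w => by
    simp only [hom]; ring
  simp only [avg, h5, sum_add_distrib, ← mul_sum, h4]
  field_simp

end Vale.Agent.P154
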