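import Vale.Agent.P154.Tree
import Vale.Agent.P154.Exp

namespace Vale.Agent.P154

open Equiv Finset

variable {q : ℕ}

def Link (q : ℕ) : Prop :=
  (univ : Finset (Perm (Fin q))).val.map (fun τ : Perm (Fin q) => List.ofFn τ)
    = ((List.finRange q).permutations' : Multiset (List (Fin q)))

lemma link3 : Link 3 := by unfold Link; decide +kernel
lemma link4 : Link 4 := by unfold Link; decide +kernel

lemma mon_ofFn : ∀ {n : ℕ} (μ : Fin n → ℕ) (a : Fin n → ℝ),
    mon (List.ofFn μ) (List.ofFn a) = ∏ j, a j ^ μ j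
  | 0, μ, a => by simp [mon]
  | n + 1, μ, a => by
    simp only [List.ofFn_succ, mon, List.headD_cons, List.tail_cons, Fin.prod_univ_succ]
    rw [mon_ofFn]

lemma exists_ofFn {α : Type} {l : List α} (h : l.length = q) : ∃ μ : Fin q → α, l = List.ofFn μ := by
  subst h; exact ⟨l.get, (List.ofFn_get l).symm⟩

lemma ML_eq (hL : Link q) {l : List ℕ} (h : l.length = q) (a : Fin q → ℝ) :
    ML l (List.ofFn a) = ∑ τ : Perm (Fin q), mon l (List.ofFn (a ∘ τ)) := by
  obtain ⟨μ, rfl⟩ := exists_ofFn h
  have h1 := congrArg (fun s : Multiset (List (Fin q)) =>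
    (s.map fun t => mon (t.map μ) (List.ofFn a)).sum) hL
  simp only [Multiset.map_map, Multiset.map_coe, Multiset.sum_coe, Function.comp_def] at h1
  rw [ML, List.ofFn_eq_map (f := μ), ← List.map_permutations', List.map_map]
  refine h1.symm.trans ?_
  rw [← Equiv.sum_comp (Equiv.inv (Perm (Fin q)))]
  refine sum_congr rfl fun τ _ => ?_
  rw [← List.ofFn_eq_map, List.map_ofFn, mon_ofFn, mon_ofFn]
  symm
  rw [← Equiv.prod_comp τ]
  simp

lemma ML_comp (hL : Link q) {l : List ℕ} (h : l.length = q) (a : Fin q → ℝ) (σ : Perm (Fin q)) :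
    ML l (List.ofFn (a ∘ σ)) = ML l (List.ofFn a) := by
  rw [ML_eq hL h, ML_eq hL h, ← Equiv.sum_comp (Equiv.mulLeft σ) (fun τ => mon l (List.ofFn (a ∘ τ)))]
  rfl

lemma ML_mul (hL : Link q) {l : List ℕ} (h : l.length = q) (a b : Fin q → ℝ) :
    ∑ σ : Perm (Fin q), ML l (List.ofFn (a * b ∘ σ)) = ML l (List.ofFn a) * ML l (List.ofFn b) := by
  simp only [ML_eq hL h]
  rw [sum_comm, sum_mul]
  refine sum_congr rfl fun τ _ => ?_
  rw [mul_sum, ← Equiv.sum_comp (Equiv.mulRight τ) (fun σ => mon l (List.ofFn (a ∘ τ)) *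
    mon l (List.ofFn (b ∘ σ)))]
  refine sum_congr rfl fun σ _ => ?_
  obtain ⟨μ, rfl⟩ := exists_ofFn h
  simp [mon_ofFn, mul_pow, prod_mul_distrib]

lemma ML_perm {l l' : List ℕ} (h : l.Perm l') (xs : List ℝ) : ML l xs = ML l' xs :=
  (h.permutations'.map _).sum_eq

def bumps (k : ℕ) : List ℕ → List (List ℕ)
  | [] => []
  | x :: l => (Nat.add x k :: l) :: (bumps k l).map (x :: ·)

lemma mon_bumps (k : ℕ) : ∀ (l : List ℕ) (xs : List ℝ), l.length = xs.length →
    ((bumps k l).map (mon · xs)).sum = (xs.map (· ^ k)).sum * mon l xs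
  | [], [], _ => by simp [bumps]
  | x :: l, y :: xs, h => by
    have := mon_bumps k l xs (by simpa using h)
    simp only [bumps, List.map_cons, List.sum_cons, List.map_map, Function.comp_def, mon,
      List.headD_cons, List.tail_cons, List.sum_map_mul_left, this, Nat.add_eq, pow_add]
    ring

lemma mem_bumps (k : ℕ) : ∀ (l l' : List ℕ), l' ∈ bumps k l →
    l'.length = l.length ∧ l'.sum = k + l.sum
  | x :: l, l', h => by
    rcases List.mem_cons.1 h with rfl | h
    · simp; omega
    · obtain ⟨t, ht, rfl⟩ := List.mem_map.1 h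
      have := mem_bumps k l t ht
      simp [this.1, this.2]; omega

noncomputable def ps (k : ℕ) (a : Fin q → ℝ) : ℝ := ∑ i, a i ^ k

lemma ML_bumps (hL : Link q) (k : ℕ) {l : List ℕ} (h : l.length = q) (a : Fin q → ℝ) :
    ((bumps k l).map (ML · (List.ofFn a))).sum = ps k a * ML l (List.ofFn a) := by
  rw [List.map_congr_left (g := fun l' => ∑ τ : Perm (Fin q), mon l' (List.ofFn (a ∘ τ)))
    (fun l' hl' => ML_eq hL ((mem_bumps k l l' hl').1.trans h) a), ML_eq hL h, mul_sum]
  have : ∀ L : List (List ℕ), (L.map fun l' => ∑ τ : Perm (Fin q), mon l' (List.ofFn (a ∘ τ))).sum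
      = ∑ τ : Perm (Fin q), (L.map (mon · (List.ofFn (a ∘ τ)))).sum := by
    intro L
    induction L with
    | nil => simp
    | cons x L ih => simp [ih, sum_add_distrib]
  rw [this]
  refine sum_congr rfl fun τ _ => ?_
  rw [mon_bumps k l _ (by simp [h]), List.map_ofFn, List.sum_ofFn, ps,
    ← Equiv.sum_comp τ (fun i => a i ^ k)]
  rfl

def parts : ℕ → ℕ → ℕ → List (List ℕ)
  | 0, m, _ => if m = 0 then [[]] else []
  | k + 1, m, mx => (List.range (min m mx + 1)).flatMap fun a => (parts k (m - a) a).map (a :: ·)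

lemma of_mem_parts : ∀ (k m mx : ℕ) (l : List ℕ), l ∈ parts k m mx → l.length = k ∧ l.sum = m
  | 0, m, mx, l, h => by
    unfold parts at h
    split_ifs at h with hm
    · simp at h; simp [h, hm]
    · simp at h
  | k + 1, m, mx, l, h => by
    simp only [parts, List.mem_flatMap, List.mem_range, List.mem_map] at h
    obtain ⟨a, ha, t, ht, rfl⟩ := h
    have := of_mem_parts k _ _ t ht
    simp [this.1, this.2]; omega

lemma mem_parts : ∀ (l : List ℕ) (mx : ℕ), l.Pairwise (· ≥ ·) → (∀ x ∈ l, x ≤ mx) →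
    l ∈ parts l.length l.sum mx
  | [], mx, _, _ => by simp [parts]
  | a :: l, mx, hp, h => by
    simp only [List.length_cons, parts, List.mem_flatMap, List.mem_range, List.mem_map,
      List.sum_cons]
    refine ⟨a, ?_, l, ?_, rfl⟩
    · have := h a (by simp); omega
    · rw [Nat.add_sub_cancel_left]
      exact mem_parts l a (List.Pairwise.of_cons hp) fun x hx => List.rel_of_pairwise_cons hp hx

def bas (q m : ℕ) : List (List ℕ) := parts q m m

def srt (l : List ℕ) : List ℕ := l.insertionSort (· ≥ ·)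

lemma srt_mem {l : List ℕ} : srt l ∈ bas l.length l.sum := by
  have hp : (srt l).Perm l := List.perm_insertionSort _ _
  have := mem_parts (srt l) l.sum (List.pairwise_insertionSort _ _)
    (fun x hx => List.single_le_sum (fun _ _ => Nat.zero_le _) x (hp.mem_iff.1 hx))
  rwa [hp.length_eq, hp.sum_eq] at this

lemma parts_zero : ∀ k mx, parts k 0 mx = [List.replicate k 0]
  | 0, _ => rfl
  | k + 1, mx => by simp [parts, parts_zero k, List.replicate_succ]

noncomputable def phi (m : ℕ) (a : Fin q → ℝ) : List ℝ := (bas q m).map (ML · (List.ofFn a))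

lemma phi_zero (hL : Link q) (a : Fin q → ℝ) : phi 0 a = [(q.factorial : ℝ)] := by
  have : ∀ (k : ℕ) (xs : List ℝ), mon (List.replicate k 0) xs = 1 := by
    intro k
    induction k with
    | zero => intro xs; rfl
    | succ k ih => intro xs; simp [List.replicate_succ, mon, ih]
  simp [phi, bas, parts_zero, ML_eq hL, this, Fintype.card_perm]

lemma phi_cone {d : ℕ} (hL : Link (d + 1)) (m : ℕ) {a : Fin (d + 1) → ℝ} (ha : ∀ i, 0 ≤ a i) :
    InCone (gens d (bas (d + 1) m)) (phi m a) := by
  intro f hf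
  set σ := Tuple.sort (OrderDual.toDual ∘ a)
  have hm : Monotone ((OrderDual.toDual ∘ a) ∘ σ) := Tuple.monotone_sort _
  have := cone_list hf (l := List.ofFn (a ∘ σ)) (by simp)
    (List.pairwise_ofFn.2 fun i j hij => hm hij.le) (by simp [ha])
  rwa [List.map_congr_left (l := bas (d + 1) m)
    (fun l hl => ML_comp hL (of_mem_parts _ _ _ l hl).1 a σ)] at this

def inc : List (List ℕ) → List ℤ → List ℕ → List ℤ
  | [], v, _ => v
  | b :: bs, [], k => if k == b then [1] else 0 :: inc bs [] k
  | b :: bs, x :: v, k => if k == b then Int.add x 1 :: v else x :: inc bs v k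

lemma dR_inc (g : List ℕ → ℝ) (k : List ℕ) : ∀ (b : List (List ℕ)) (v : List ℤ), k ∈ b →
    dR (cZ (inc b v k)) (b.map g) = g k + dR (cZ v) (b.map g)
  | l :: b, [], h => by
    unfold inc
    split_ifs with hk
    · simp [eq_of_beq hk]
    · have : k ∈ b := by simpa [show k ≠ l by simpa using hk] using h
      simp [dR_inc g k b [] this]
  | l :: b, x :: v, h => by
    unfold inc
    split_ifs with hk
    · simp [eq_of_beq hk]; ring
    · have : k ∈ b := by simpa [show k ≠ l by simpa using hk] using h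
      simp [dR_inc g k b v this]; ring

def dense (b : List (List ℕ)) : List (List ℕ) → List ℤ
  | [] => []
  | l :: L => inc b (dense b L) (srt l)

lemma dR_dense (xs : List ℝ) (m : ℕ) : ∀ L : List (List ℕ), (∀ l ∈ L, l.length = q ∧ l.sum = m) →
    dR (cZ (dense (bas q m) L)) ((bas q m).map (ML · xs)) = (L.map (ML · xs)).sum
  | [], _ => by simp [dense]
  | l :: L, h => by
    have h1 := h l (by simp)
    have h2 := srt_mem (l := l)
    rw [h1.1, h1.2] at h2
    rw [dense, dR_inc _ _ _ _ h2, dR_dense xs m L fun l hl => h l (List.mem_cons_of_mem _ hl),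
      ML_perm (l := srt l) (l' := l) (List.perm_insertionSort _ l)]
    simp

def emat (q k m : ℕ) : List (List ℤ) := (bas q m).map fun l => dense (bas q (k + m)) (bumps k l)

lemma emat_spec (hL : Link q) (k m : ℕ) (a : Fin q → ℝ) :
    (emat q k m).map (fun r => dR (cZ r) (phi (k + m) a)) = (phi m a).map (ps k a * ·) := by
  simp only [emat, phi, List.map_map]
  refine List.map_congr_left fun l hl => ?_
  have h1 := of_mem_parts _ _ _ l hl
  simp only [Function.comp]
  rw [dR_dense _ _ _ (fun l' hl' => by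
    have := mem_bumps k l l' hl'
    exact ⟨this.1.trans h1.1, by rw [this.2, h1.2]⟩), ML_bumps hL k h1.1]

def smulZ (c : ℤ) (v : List ℤ) : List ℤ := if c == 0 then [] else v.map (Int.mul c)

lemma dR_smulZ (c : ℤ) (v : List ℤ) (x : List ℝ) : dR (cZ (smulZ c v)) x = c * dR (cZ v) x := by
  unfold smulZ
  split_ifs with h
  · simp [eq_of_beq h]
  · rw [← dR_map_mul]; simp [cZ, Function.comp_def]

lemma dR_vaddZ (u v : List ℤ) (x : List ℝ) :
    dR (cZ (vaddZ u v)) x = dR (cZ u) x + dR (cZ v) x := by rw [cZ_vadd, dR_vaddR]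

def vecMat : List ℤ → List (List ℤ) → List ℤ
  | c :: u, r :: E => vaddZ (smulZ c r) (vecMat u E)
  | _, _ => []

lemma dR_vecMat (x : List ℝ) : ∀ (u : List ℤ) (E : List (List ℤ)),
    dR (cZ (vecMat u E)) x = dR (cZ u) (E.map fun r => dR (cZ r) x)
  | [], E => by simp [vecMat]
  | _ :: _, [] => by simp [vecMat]
  | c :: u, r :: E => by simp [vecMat, dR_vaddZ, dR_smulZ, dR_vecMat x u E]

lemma dR_emat (hL : Link q) (k m : ℕ) (a : Fin q → ℝ) (u : List ℤ) :
    dR (cZ (vecMat u (emat q k m))) (phi (k + m) a) = ps k a * dR (cZ u) (phi m a) := by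
  rw [dR_vecMat, emat_spec hL, dR_comm, dR_map_mul, dR_comm]

def psVec (q : ℕ) : List ℕ → List ℤ
  | [] => [1]
  | k :: ks => vecMat (psVec q ks) (emat q k ks.sum)

lemma dR_psVec (hL : Link q) (a : Fin q → ℝ) : ∀ ks : List ℕ,
    dR (cZ (psVec q ks)) (phi ks.sum a) = q.factorial * (ks.map (ps · a)).prod
  | [] => by simp [psVec, phi_zero hL]
  | k :: ks => by
    rw [psVec, List.sum_cons, dR_emat hL, dR_psVec hL a ks, List.map_cons, List.prod_cons]; ring

/-- polynomials in the power sums -/
abbrev PS := List (ℤ × List ℕ)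

noncomputable def evPS (p : PS) (a : Fin q → ℝ) : ℝ :=
  (p.map fun e => (e.1 : ℝ) * (e.2.map (ps · a)).prod).sum

def comb (q : ℕ) : PS → List ℤ
  | [] => []
  | e :: p => vaddZ (smulZ e.1 (psVec q e.2)) (comb q p)

def homog (m : ℕ) (p : PS) : Bool := p.all fun e => e.2.sum == m

lemma dR_comb (hL : Link q) (a : Fin q → ℝ) (m : ℕ) : ∀ p : PS, homog m p = true →
    dR (cZ (comb q p)) (phi m a) = q.factorial * evPS p a
  | [], _ => by simp [comb, evPS]
  | e :: p, h => by
    simp only [homog, List.all_cons, Bool.and_eq_true, beq_iff_eq] at h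
    have := dR_comb hL a m p h.2
    rw [comb, dR_vaddZ, dR_smulZ, this, ← h.1, dR_psVec hL]
    simp only [evPS, List.map_cons, List.sum_cons]; ring

lemma ps_smul (k : ℕ) (c : ℝ) (a : Fin q → ℝ) : ps k (c • a) = c ^ k * ps k a := by
  simp [ps, mul_pow, mul_sum]

lemma evPS_smul (c : ℝ) (a : Fin q → ℝ) (m : ℕ) : ∀ p : PS, homog m p = true →
    evPS p (c • a) = c ^ m * evPS p a
  | [], _ => by simp [evPS]
  | e :: p, h => by
    simp only [homog, List.all_cons, Bool.and_eq_true, beq_iff_eq] at h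
    have h1 := evPS_smul c a m p h.2
    have h2 : ∀ ks : List ℕ, (ks.map (ps · (c • a))).prod = c ^ ks.sum * (ks.map (ps · a)).prod := by
      intro ks
      induction ks with
      | nil => simp
      | cons k ks ih =>
        rw [List.map_cons, List.prod_cons, ih, ps_smul, List.sum_cons, List.map_cons,
          List.prod_cons]; ring
    simp only [evPS, List.map_cons, List.sum_cons] at h1 ⊢
    rw [h1, h2, h.1]; ring

lemma continuous_evPS : ∀ p : PS, Continuous (evPS (q := q) p)
  | [] => continuous_const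
  | e :: p => by
    have h2 : ∀ ks : List ℕ, Continuous fun a : Fin q → ℝ => (ks.map (ps · a)).prod := by
      intro ks
      induction ks with
      | nil => exact continuous_const
      | cons k ks ih =>
        simp only [List.map_cons, List.prod_cons]
        exact Continuous.mul (by unfold ps; fun_prop) ih
    exact ((h2 e.2).const_mul _).add (continuous_evPS p)

def up (q : ℕ) : ℕ → ℕ → List ℤ → List ℤ
  | 0, _, u => u
  | j + 1, m, u => up q j (1 + m) (vecMat u (emat q 1 m))

lemma dR_up (hL : Link q) (a : Fin q → ℝ) : ∀ (j m : ℕ) (u : List ℤ),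
    dR (cZ (up q j m u)) (phi (m + j) a) = ps 1 a ^ j * dR (cZ u) (phi m a)
  | 0, m, u => by simp [up]
  | j + 1, m, u => by
    rw [up, show m + (j + 1) = 1 + m + j by ring, dR_up hL a j, dR_emat hL]; ring

lemma Simp.ps_one {a : Fin q → ℝ} (ha : Simp a) : ps 1 a = q := by simp [ps, ha.2]

/-- homogenised vector of a power sum polynomial of degree `m` in degree `n` -/
def hv (q n m : ℕ) (p : PS) : List ℤ := up q (n - m) m (comb q p)

def hok (n m : ℕ) (p : PS) : Bool := homog m p && Nat.ble m n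

lemma dR_hv (hL : Link q) {n m : ℕ} {p : PS} (h : hok n m p = true) {a : Fin q → ℝ}
    (ha : Simp a) : dR (cZ (hv q n m p)) (phi n a) = q ^ (n - m) * q.factorial * evPS p a := by
  simp only [hok, Bool.and_eq_true, Nat.ble_eq] at h
  have := dR_up hL a (n - m) m (comb q p)
  rw [Nat.add_sub_cancel' h.2, dR_comb hL a m p h.1, ha.ps_one] at this
  rw [hv, this]; ring

def chkPS (d n m : ℕ) (p : PS) : Bool :=
  hok n m p && chkVec (hv (d + 1) n m p) (gens d (bas (d + 1) n))

lemma chkPS_sound {d n m : ℕ} (hL : Link (d + 1)) {p : PS} (h : chkPS d n m p = true)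
    {a : Fin (d + 1) → ℝ} (ha : Simp a) : 0 ≤ evPS p a := by
  simp only [chkPS, Bool.and_eq_true] at h
  have := chkVec_sound h.2 (phi_cone hL n ha.1)
  rw [dR_hv hL h.1 ha] at this
  exact nonneg_of_mul_nonneg_right this (by positivity) |> fun h => h

end Vale.Agent.P154
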