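import Mathlib

namespace Vale.Agent.P154

/-! Dense vectors -/

def vaddN : List ℕ → List ℕ → List ℕ
  | [], v => v
  | x :: u, [] => x :: u
  | x :: u, y :: v => Nat.add x y :: vaddN u v

def vaddZ : List ℤ → List ℤ → List ℤ
  | [], v => v
  | x :: u, [] => x :: u
  | x :: u, y :: v => Int.add x y :: vaddZ u v

noncomputable def vaddR : List ℝ → List ℝ → List ℝ
  | [], v => v
  | x :: u, [] => x :: u
  | x :: u, y :: v => (x + y) :: vaddR u v

def dN : List ℕ → List ℕ → ℕ
  | x :: u, y :: v => Nat.add (Nat.mul x y) (dN u v)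
  | _, _ => 0

noncomputable def dR : List ℝ → List ℝ → ℝ
  | x :: u, y :: v => x * y + dR u v
  | _, _ => 0

noncomputable def cN (u : List ℕ) : List ℝ := u.map (fun x : ℕ => (x : ℝ))
noncomputable def cZ (u : List ℤ) : List ℝ := u.map (fun x : ℤ => (x : ℝ))

@[simp] lemma dR_nil_left (v : List ℝ) : dR [] v = 0 := by simp [dR]
@[simp] lemma dR_nil_right (v : List ℝ) : dR v [] = 0 := by cases v <;> simp [dR]
@[simp] lemma dR_cons (x y : ℝ) (u v : List ℝ) : dR (x :: u) (y :: v) = x * y + dR u v := rfl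
@[simp] lemma dN_nil_left (v : List ℕ) : dN [] v = 0 := by simp [dN]
@[simp] lemma dN_nil_right (v : List ℕ) : dN v [] = 0 := by cases v <;> simp [dN]
@[simp] lemma dN_cons (x y : ℕ) (u v : List ℕ) : dN (x :: u) (y :: v) = x * y + dN u v := rfl
@[simp] lemma cN_nil : cN [] = [] := rfl
@[simp] lemma cZ_nil : cZ [] = [] := rfl
@[simp] lemma cN_cons (x : ℕ) (u : List ℕ) : cN (x :: u) = (x : ℝ) :: cN u := rfl
@[simp] lemma cZ_cons (x : ℤ) (u : List ℤ) : cZ (x :: u) = (x : ℝ) :: cZ u := rfl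

lemma dR_comm : ∀ u v : List ℝ, dR u v = dR v u
  | [], v => by simp
  | _ :: _, [] => by simp
  | x :: u, y :: v => by simp [dR_comm u v, mul_comm]

lemma dR_vaddR : ∀ u v c : List ℝ, dR (vaddR u v) c = dR u c + dR v c
  | [], v, c => by simp [vaddR]
  | _ :: _, [], c => by simp [vaddR]
  | _ :: _, _ :: _, [] => by simp
  | x :: u, y :: v, z :: c => by simp [vaddR, dR_vaddR u v c]; ring

lemma dR_map_mul (t : ℝ) : ∀ u c : List ℝ, dR (u.map (t * ·)) c = t * dR u c
  | [], c => by simp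
  | _ :: _, [] => by simp
  | x :: u, z :: c => by simp [dR_map_mul t u c]; ring

lemma cN_vadd : ∀ u v : List ℕ, cN (vaddN u v) = vaddR (cN u) (cN v)
  | [], v => by simp [vaddN, vaddR]
  | _ :: _, [] => by simp [vaddN, vaddR]
  | x :: u, y :: v => by simp [vaddN, vaddR, cN_vadd u v]

lemma cZ_vadd : ∀ u v : List ℤ, cZ (vaddZ u v) = vaddR (cZ u) (cZ v)
  | [], v => by simp [vaddZ, vaddR]
  | _ :: _, [] => by simp [vaddZ, vaddR]
  | x :: u, y :: v => by simp [vaddZ, vaddR, cZ_vadd u v]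

/-! Polynomial trees with vector leaves -/

inductive PT
  | z : PT
  | c : List ℕ → PT
  | n : PT → PT → PT
  | s : PT → PT → PT

namespace PT

noncomputable def ev (f : List ℝ) : PT → List ℝ → ℝ
  | z, _ => 0
  | c v, _ => dR (cN v) f
  | n h t, xs => ev f h xs.tail + xs.headD 0 * ev f t xs
  | s p r, xs => ev f p xs + ev f r xs

def add : PT → PT → PT
  | z, r => r
  | c v, z => c v
  | c v, c w => c (vaddN v w)
  | c v, n h t => s (c v) (n h t)
  | c v, s h t => s (c v) (s h t)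
  | n h t, z => n h t
  | n h t, n h' t' => n (add h h') (add t t')
  | n h t, c v => s (n h t) (c v)
  | n h t, s h' t' => s (n h t) (s h' t')
  | s h t, r => s (s h t) r

lemma ev_add (f : List ℝ) : ∀ (p r : PT) (xs : List ℝ), ev f (add p r) xs = ev f p xs + ev f r xs
  | z, r, xs => by simp [add, ev]
  | c v, z, xs => by simp [add, ev]
  | c v, c w, xs => by simp [add, ev, cN_vadd, dR_vaddR]
  | c v, n h t, xs => by simp [add, ev]
  | c v, s h t, xs => by simp [add, ev]
  | n h t, z, xs => by simp [add, ev]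
  | n h t, n h' t', xs => by simp only [add, ev, ev_add f h h', ev_add f t t']; ring
  | n h t, c v, xs => by simp [add, ev]
  | n h t, s h' t', xs => by simp [add, ev]
  | s h t, r, xs => by simp [add, ev]

/-- multiply by the second variable -/
def mulY : PT → PT
  | z => z
  | c v => n (n z (c v)) z
  | n h t => n (n z h) (mulY t)
  | s p r => s (mulY p) (mulY r)

lemma ev_mulY (f : List ℝ) : ∀ (p : PT) (xs : List ℝ),
    ev f (mulY p) xs = xs.tail.headD 0 * ev f p xs
  | z, xs => by simp [mulY, ev]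
  | c v, xs => by simp [mulY, ev]
  | n h t, xs => by simp only [mulY, ev, ev_mulY f t]; ring
  | s p r, xs => by simp only [mulY, ev, ev_mulY f p, ev_mulY f r]; ring

/-- substitute `x₁ ↦ x₁ + x₂` -/
def step : PT → PT
  | z => z
  | c v => c v
  | n h t => add (n h (step t)) (mulY (step t))
  | s p r => s (step p) (step r)

lemma ev_step (f : List ℝ) (x : ℝ) (ys : List ℝ) : ∀ p : PT,
    ev f (step p) (x :: ys) = ev f p ((x + ys.headD 0) :: ys)
  | z => by simp [step, ev]
  | c v => by simp [step, ev]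
  | n h t => by
    simp only [step, ev_add, ev_mulY, ev, ev_step f x ys t, List.tail_cons, List.headD_cons]; ring
  | s p r => by simp only [step, ev, ev_step f x ys p, ev_step f x ys r]

def mapH (g : PT → PT) : PT → PT
  | z => z
  | c v => c v
  | n h t => n (g h) (mapH g t)
  | s p r => s (mapH g p) (mapH g r)

lemma ev_mapH (f : List ℝ) (g : PT → PT) (x : ℝ) (ys ys' : List ℝ)
    (hg : ∀ p, ev f (g p) ys = ev f p ys') : ∀ p : PT,
    ev f (mapH g p) (x :: ys) = ev f p (x :: ys')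
  | z => by simp [mapH, ev]
  | c v => by simp [mapH, ev]
  | n h t => by simp only [mapH, ev, ev_mapH f g x ys ys' hg t, hg, List.tail_cons, List.headD_cons]
  | s p r => by simp only [mapH, ev, ev_mapH f g x ys ys' hg p, ev_mapH f g x ys ys' hg r]

def sub : ℕ → PT → PT
  | 0, p => p
  | d + 1, p => mapH (sub d) (step p)

noncomputable def cum : ℕ → List ℝ → List ℝ
  | 0, xs => xs
  | d + 1, xs => (xs.headD 0 + (cum d xs.tail).headD 0) :: cum d xs.tail

lemma ev_cons (f : List ℝ) : ∀ (p : PT) (xs : List ℝ), ev f p xs = ev f p (xs.headD 0 :: xs.tail)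
  | _, _ :: _ => rfl
  | z, [] => rfl
  | c _, [] => rfl
  | n h t, [] => by simp [ev]
  | s p r, [] => by simp only [ev]; rw [ev_cons f p [], ev_cons f r []]

lemma ev_sub (f : List ℝ) : ∀ (d : ℕ) (xs : List ℝ) (p : PT), ev f (sub d p) xs = ev f p (cum d xs)
  | 0, _, _ => rfl
  | d + 1, xs, p => by
    rw [sub, ev_cons, ev_mapH f _ _ _ _ (ev_sub f d xs.tail), ev_step, cum]

def rows : PT → List (List ℕ) → List (List ℕ)
  | z, acc => acc
  | c v, acc => v :: acc
  | n h t, acc => rows h (rows t acc)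
  | s p r, acc => rows p (rows r acc)

lemma ev_nonneg (f : List ℝ) : ∀ (p : PT) (acc : List (List ℕ)) (xs : List ℝ),
    (∀ x ∈ xs, 0 ≤ x) → (∀ v ∈ rows p acc, 0 ≤ dR (cN v) f) →
      0 ≤ ev f p xs ∧ ∀ v ∈ acc, 0 ≤ dR (cN v) f
  | z, acc, xs, _, h => ⟨le_rfl, h⟩
  | c v, acc, xs, _, h => ⟨h v (by simp [rows]), fun w hw => h w (by simp [rows, hw])⟩
  | n p t, acc, xs, hx, h => by
    have h1 := ev_nonneg f p _ xs.tail (fun x h => hx x (List.mem_of_mem_tail h)) h
    have h2 := ev_nonneg f t _ xs hx h1.2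
    have h3 : 0 ≤ xs.headD 0 := by
      cases xs with
      | nil => exact le_rfl
      | cons x _ => exact hx x (by simp)
    exact ⟨add_nonneg h1.1 (mul_nonneg h3 h2.1), h2.2⟩
  | s p t, acc, xs, hx, h => by
    have h1 := ev_nonneg f p _ xs hx h
    have h2 := ev_nonneg f t _ xs hx h1.2
    exact ⟨add_nonneg h1.1 h2.1, h2.2⟩

def shiftK : ℕ → PT → PT
  | 0, p => p
  | k + 1, p => n z (shiftK k p)

lemma ev_shiftK (f xs : List ℝ) (p : PT) : ∀ k, ev f (shiftK k p) xs = xs.headD 0 ^ k * ev f p xs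
  | 0 => by simp [shiftK]
  | k + 1 => by simp only [shiftK, ev, ev_shiftK f xs p k]; ring

def mono (v : List ℕ) : List ℕ → PT
  | [] => c v
  | k :: l => shiftK k (n (mono v l) z)

end PT

noncomputable def mon : List ℕ → List ℝ → ℝ
  | [], _ => 1
  | k :: l, xs => xs.headD 0 ^ k * mon l xs.tail

lemma PT.ev_mono (f : List ℝ) (v : List ℕ) : ∀ (l : List ℕ) (xs : List ℝ),
    PT.ev f (PT.mono v l) xs = dR (cN v) f * mon l xs
  | [], xs => by simp [PT.mono, PT.ev, mon]
  | k :: l, xs => by simp only [PT.mono, PT.ev_shiftK, PT.ev, mon, PT.ev_mono f v l]; ring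

def unitV : ℕ → List ℕ
  | 0 => [1]
  | r + 1 => 0 :: unitV r

lemma dR_unitV : ∀ (r : ℕ) (f : List ℝ), dR (cN (unitV r)) f = (f.drop r).headD 0
  | 0, [] => by simp
  | 0, _ :: _ => by simp [unitV]
  | r + 1, [] => by simp
  | r + 1, _ :: f => by simp [unitV, dR_unitV r f]

def monos (v : List ℕ) : List (List ℕ) → PT → PT
  | [], p => p
  | l :: ls, p => PT.add (PT.mono v l) (monos v ls p)

lemma ev_monos (f : List ℝ) (v : List ℕ) (xs : List ℝ) (p : PT) : ∀ ls : List (List ℕ),
    PT.ev f (monos v ls p) xs = dR (cN v) f * (ls.map (mon · xs)).sum + PT.ev f p xs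
  | [] => by simp [monos]
  | l :: ls => by
    simp only [monos, PT.ev_add, PT.ev_mono, ev_monos f v xs p ls, List.map_cons, List.sum_cons]
    ring

/-- symmetrised monomial on lists -/
noncomputable def ML (l : List ℕ) (xs : List ℝ) : ℝ := (l.permutations'.map (mon · xs)).sum

def build : ℕ → List (List ℕ) → PT
  | _, [] => PT.z
  | r, l :: b => monos (unitV r) l.permutations' (build (r + 1) b)

lemma ev_build (f xs : List ℝ) : ∀ (b : List (List ℕ)) (r : ℕ),
    PT.ev f (build r b) xs = dR (f.drop r) (b.map (ML · xs))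
  | [], r => by simp [build, PT.ev]
  | l :: b, r => by
    rw [build, ev_monos, ev_build f xs b, dR_unitV, ← List.tail_drop, List.map_cons, ML]
    cases f.drop r <;> simp

/-- generators of a cone containing all vectors of symmetrised monomials -/
def gens (d : ℕ) (b : List (List ℕ)) : List (List ℕ) := (PT.sub d (build 0 b)).rows []

lemma exists_cum : ∀ (d : ℕ) (l : List ℝ), l.length = d + 1 → l.Pairwise (· ≥ ·) →
    (∀ x ∈ l, 0 ≤ x) → ∃ xs, (∀ x ∈ xs, 0 ≤ x) ∧ PT.cum d xs = l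
  | 0, l, _, _, h => ⟨l, h, rfl⟩
  | d + 1, [], h, _, _ => by simp at h
  | d + 1, [_], h, _, _ => by simp at h
  | d + 1, a :: b :: l, h, hp, h0 => by
    obtain ⟨xs, h1, h2⟩ := exists_cum d (b :: l) (by simpa using h) (List.Pairwise.of_cons hp)
      (fun x hx => h0 x (List.mem_cons_of_mem _ hx))
    refine ⟨(a - b) :: xs, ?_, by simp [PT.cum, h2]⟩
    intro x hx
    rcases List.mem_cons.1 hx with rfl | hx
    · exact sub_nonneg.2 (List.rel_of_pairwise_cons hp (by simp))
    · exact h1 x hx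

lemma cone_list {d : ℕ} {b : List (List ℕ)} {f : List ℝ}
    (h : ∀ v ∈ gens d b, 0 ≤ dR (cN v) f) {l : List ℝ} (hl : l.length = d + 1)
    (hp : l.Pairwise (· ≥ ·)) (h0 : ∀ x ∈ l, 0 ≤ x) : 0 ≤ dR f (b.map (ML · l)) := by
  obtain ⟨xs, h1, h2⟩ := exists_cum d l hl hp h0
  have := (PT.ev_nonneg f _ [] xs h1 h).1
  rwa [PT.ev_sub, h2, ev_build, List.drop_zero] at this

/-! Packed bilinear check -/

def pk (B : ℕ) : List ℕ → ℕ
  | [] => 0
  | x :: l => Nat.add x (Nat.mul B (pk B l))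

@[simp] lemma pk_cons (B x : ℕ) (l : List ℕ) : pk B (x :: l) = x + B * pk B l := rfl

def packC (B : ℕ) : List (List ℕ) → List ℕ
  | [] => []
  | y :: Y => vaddN y ((packC B Y).map (Nat.mul B))

lemma dN_vadd : ∀ c u v : List ℕ, dN c (vaddN u v) = dN c u + dN c v
  | c, [], v => by simp [vaddN]
  | c, _ :: _, [] => by simp [vaddN]
  | [], _ :: _, _ :: _ => by simp
  | z :: c, x :: u, y :: v => by simp [vaddN, dN_vadd c u v]; ring

lemma dN_map (B : ℕ) : ∀ c u : List ℕ, dN c (u.map (Nat.mul B)) = B * dN c u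
  | c, [] => by simp
  | [], _ :: _ => by simp
  | z :: c, x :: u => by simp [dN_map B c u]; ring

def gN (M : List (List ℕ)) (y U : List ℕ) : ℕ := dN y (M.map (dN · U))

lemma gN_lin (B : ℕ) (u v : List ℕ) : ∀ (M : List (List ℕ)) (y : List ℕ),
    gN M y (vaddN u (v.map (Nat.mul B))) = gN M y u + B * gN M y v
  | [], y => by simp [gN]
  | _ :: _, [] => by simp [gN]
  | r :: M, x :: y => by
    have := gN_lin B u v M y
    simp only [gN, List.map_cons, dN_cons, dN_vadd, dN_map] at this ⊢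
    rw [this]; ring

lemma gN_nil : ∀ (M : List (List ℕ)) (y : List ℕ), gN M y [] = 0
  | [], y => by simp [gN]
  | _ :: _, [] => by simp [gN]
  | r :: M, x :: y => by
    have := gN_nil M y
    simp only [gN, List.map_cons, dN_cons, dN_nil_right] at this ⊢
    rw [this]; rfl

lemma gN_packC (B : ℕ) (M : List (List ℕ)) (y : List ℕ) : ∀ Y : List (List ℕ),
    gN M y (packC B Y) = pk B (Y.map (gN M y))
  | [] => by simp [packC, gN_nil, pk]
  | u :: Y => by rw [packC, gN_lin, gN_packC B M y Y]; rfl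

lemma le_pk_one : ∀ (l : List ℕ) (x : ℕ), x ∈ l → x ≤ pk 1 l
  | y :: l, x, h => by
    rcases List.mem_cons.1 h with rfl | h
    · simp
    · have := le_pk_one l x h
      simp; omega

lemma land_test (k : ℕ) {α : Type} (g : α → ℕ) : ∀ Y : List α, (∀ y ∈ Y, g y < 2 ^ (k + 1)) →
    pk (2 ^ (k + 1)) (Y.map g) &&& pk (2 ^ (k + 1)) (Y.map fun _ => 2 ^ k)
      = pk (2 ^ (k + 1)) (Y.map fun _ => 2 ^ k) → ∀ y ∈ Y, 2 ^ k ≤ g y
  | [], _, _ => by simp
  | u :: Y, hb, h => by
    have hu := hb u (by simp)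
    have hk : 2 ^ k < 2 ^ (k + 1) := Nat.pow_lt_pow_right (by norm_num) (by omega)
    have hp : 0 < 2 ^ (k + 1) := by positivity
    have h1 := congrArg (· % 2 ^ (k + 1)) h
    have h2 := congrArg (· / 2 ^ (k + 1)) h
    simp only [List.map_cons, pk_cons, Nat.and_mod_two_pow, Nat.and_div_two_pow,
      Nat.add_mul_mod_self_left, Nat.mod_eq_of_lt hu, Nat.mod_eq_of_lt hk,
      Nat.add_mul_div_left _ _ hp, Nat.div_eq_of_lt hu, Nat.div_eq_of_lt hk, zero_add] at h1 h2
    intro y hy
    rcases List.mem_cons.1 hy with rfl | hy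
    · rw [← h1]; exact Nat.and_le_left
    · exact land_test k g Y (fun y hy => hb y (List.mem_cons_of_mem _ hy)) h2 y hy

lemma pk_sub (B h : ℕ) {α : Type} (f g : α → ℕ) : ∀ Y : List α, (∀ y ∈ Y, g y ≤ h) →
    pk B (Y.map f) + pk B (Y.map fun _ => h) = pk B (Y.map fun y => f y + h - g y) + pk B (Y.map g)
  | [], _ => rfl
  | u :: Y, hb => by
    have h1 := hb u (by simp)
    have h2 := pk_sub B h f g Y (fun y hy => hb y (List.mem_cons_of_mem _ hy))
    simp only [List.map_cons, pk_cons]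
    have h3 := congrArg (B * ·) h2
    simp only [mul_add] at h3
    omega

def posM (M : List (List ℤ)) : List (List ℕ) := M.map (·.map Int.toNat)
def negM (M : List (List ℤ)) : List (List ℕ) := M.map (·.map fun x => Int.toNat (Int.neg x))

def chkRows (h H : ℕ) (P N P1 N1 : List ℕ) : List (List ℕ) → Bool
  | [] => true
  | y :: Y => Nat.blt (dN y P1) h && Nat.blt (dN y N1) h &&
      Nat.beq (Nat.land (Nat.sub (Nat.add (dN y P) H) (dN y N)) H) H && chkRows h H P N P1 N1 Y

def chkBil (k : ℕ) (M : List (List ℤ)) (X Y : List (List ℕ)) : Bool :=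
  chkRows (2 ^ k) (pk (2 ^ (k + 1)) (Y.map fun _ => 2 ^ k))
    ((posM M).map (dN · (packC (2 ^ (k + 1)) Y))) ((negM M).map (dN · (packC (2 ^ (k + 1)) Y)))
    ((posM M).map (dN · (packC 1 Y))) ((negM M).map (dN · (packC 1 Y))) X

lemma chkRows_mem {h H : ℕ} {P N P1 N1 : List ℕ} : ∀ {X : List (List ℕ)},
    chkRows h H P N P1 N1 X = true → ∀ y ∈ X, dN y P1 < h ∧ dN y N1 < h ∧
      (dN y P + H - dN y N) &&& H = H
  | u :: X, hc, y, hy => by
    simp only [chkRows, Bool.and_eq_true, Nat.blt_eq, Nat.beq_eq] at hc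
    rcases List.mem_cons.1 hy with rfl | hy
    · exact ⟨hc.1.1.1, hc.1.1.2, hc.1.2⟩
    · exact chkRows_mem hc.2 y hy

lemma chkBil_nat {k : ℕ} {M : List (List ℤ)} {X Y : List (List ℕ)} (h : chkBil k M X Y = true)
    {x y : List ℕ} (hx : x ∈ X) (hy : y ∈ Y) : gN (negM M) x y ≤ gN (posM M) x y := by
  obtain ⟨h1, h2, h3⟩ := chkRows_mem h x hx
  change gN _ _ _ < _ at h1 h2
  change (gN _ _ _ + _ - gN _ _ _) &&& _ = _ at h3
  rw [gN_packC] at h1 h2
  have b1 : ∀ y ∈ Y, gN (posM M) x y < 2 ^ k := fun y hy =>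
    (le_pk_one _ _ (List.mem_map_of_mem hy)).trans_lt h1
  have b2 : ∀ y ∈ Y, gN (negM M) x y < 2 ^ k := fun y hy =>
    (le_pk_one _ _ (List.mem_map_of_mem hy)).trans_lt h2
  rw [gN_packC, gN_packC, pk_sub _ _ _ _ Y (fun y hy => (b2 y hy).le), Nat.add_sub_cancel] at h3
  have := land_test k _ Y (fun y hy => by have := b1 y hy; rw [pow_succ]; omega) h3 y hy
  have := b2 y hy
  omega

/-- bilinear form -/
noncomputable def bil (M : List (List ℤ)) (x y : List ℝ) : ℝ := dR x (M.map fun r => dR (cZ r) y)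

lemma dR_split : ∀ (r : List ℤ) (y : List ℕ), dR (cZ r) (cN y)
    = (dN (r.map Int.toNat) y : ℝ) - dN (r.map fun x => Int.toNat (Int.neg x)) y
  | [], y => by simp
  | _ :: _, [] => by simp
  | c :: r, x :: y => by
    have h1 : (c : ℝ) = (c.toNat : ℝ) - ((Int.neg c).toNat : ℝ) := by
      have : c = (c.toNat : ℤ) - ((-c).toNat : ℤ) := (Int.toNat_sub_toNat_neg c).symm
      exact_mod_cast this
    simp only [cZ_cons, cN_cons, dR_cons, List.map_cons, dN_cons, dR_split r y]
    push_cast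
    rw [h1]; ring

lemma bil_split (y : List ℕ) : ∀ (M : List (List ℤ)) (x : List ℕ),
    bil M (cN x) (cN y) = (gN (posM M) x y : ℝ) - gN (negM M) x y
  | [], x => by simp [bil, gN, posM, negM]
  | _ :: _, [] => by simp [bil, gN]
  | r :: M, c :: x => by
    have := bil_split y M x
    simp only [bil, gN, posM, negM, List.map_cons, cN_cons, dR_cons, dN_cons, dR_split] at this ⊢
    push_cast
    rw [this]; ring

noncomputable def colR : List (List ℤ) → List ℝ → List ℝ
  | r :: M, c :: x => vaddR ((cZ r).map (c * ·)) (colR M x)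
  | _, _ => []

lemma dR_colR (y : List ℝ) : ∀ (M : List (List ℤ)) (x : List ℝ), dR (colR M x) y = bil M x y
  | [], x => by simp [colR, bil]
  | _ :: _, [] => by simp [colR, bil]
  | r :: M, c :: x => by
    have := dR_colR y M x
    simp only [colR, bil, dR_vaddR, dR_map_mul, List.map_cons, dR_cons] at this ⊢
    rw [this]

/-- `x` lies in the closed cone generated by `X` -/
def InCone (X : List (List ℕ)) (x : List ℝ) : Prop :=
  ∀ f : List ℝ, (∀ v ∈ X, 0 ≤ dR (cN v) f) → 0 ≤ dR f x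

lemma chkBil_sound {k : ℕ} {M : List (List ℤ)} {X Y : List (List ℕ)} (h : chkBil k M X Y = true)
    {x y : List ℝ} (hx : InCone X x) (hy : InCone Y y) : 0 ≤ bil M x y := by
  rw [← dR_colR]
  refine hy _ fun v hv => ?_
  rw [dR_comm, dR_colR, bil, dR_comm]
  refine hx _ fun u hu => ?_
  have := chkBil_nat h hu hv
  change 0 ≤ bil M (cN u) (cN v)
  rw [bil_split, sub_nonneg]
  exact_mod_cast this

def chkVec (u : List ℤ) (X : List (List ℕ)) : Bool :=
  X.all fun y => Nat.ble (dN (u.map fun x => Int.toNat (Int.neg x)) y) (dN (u.map Int.toNat) y)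

lemma chkVec_sound {u : List ℤ} {X : List (List ℕ)} (h : chkVec u X = true) {x : List ℝ}
    (hx : InCone X x) : 0 ≤ dR (cZ u) x := by
  refine hx _ fun v hv => ?_
  have := List.all_eq_true.1 h v hv
  rw [Nat.ble_eq] at this
  rw [dR_comm, dR_split, sub_nonneg]
  exact_mod_cast this

end Vale.Agent.P154
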